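import Vale.Agent.P315.H95.Boxes

/-!
P315, milestone 2: weights of the units of a top.

A top is the slab `i` of level `j + e` (`e = 2 ^ s`, `K = (2 ^ m) ^ e` unit rows); its units are the
slabs `i * K + r`, `r < K`, of level `j`. The unit of length of the machine is
`wd j (class of the top)`, so the normalised mass of the top is `mass / wd` and lies in `[1/8, 1]`;
the weight of an edge of class `c'` is `2 ^ (c' - c)` (truncated subtraction).
-/

set_option autoImplicit false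

namespace Vale.Agent.P315.H869.Units

open Finset H95

variable {m w0 Kc n κr : ℕ} {S0 pos : ℕ → ℕ}

/-! ### Masses -/

/-- The mass of a slab is the sum over the unit slabs. -/
theorem mass_add (m : ℕ) (S0 : ℕ → ℕ) (j e i : ℕ) :
    mass m S0 (j + e) i = ∑ r ∈ range ((2 ^ m) ^ e), mass m S0 j (i * (2 ^ m) ^ e + r) := by
  unfold mass
  rw [show (2 ^ m) ^ (j + e) = (2 ^ m) ^ e * (2 ^ m) ^ j by rw [pow_add, mul_comm],
    sum_range_mul_add]
  refine sum_congr rfl fun r _ => sum_congr rfl fun r' _ => ?_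
  congr 1
  ring

/-- The width of a top in terms of the width of the units of the same class. -/
theorem wd_add (m w0 j e κ : ℕ) : wd m w0 (j + e) κ = (2 ^ m) ^ e * wd m w0 j κ := by
  unfold wd
  rw [pow_add]
  ring

theorem unit_lt {j e i r : ℕ} (hj : j + e ≤ n) (hi : i < (2 ^ m) ^ (n - (j + e)))
    (hr : r < (2 ^ m) ^ e) : i * (2 ^ m) ^ e + r < (2 ^ m) ^ (n - j) := by
  have h1 : n - j = n - (j + e) + e := by omega
  rw [h1, pow_add]
  calc i * (2 ^ m) ^ e + r < i * (2 ^ m) ^ e + (2 ^ m) ^ e := by omega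
    _ = (i + 1) * (2 ^ m) ^ e := by ring
    _ ≤ _ := Nat.mul_le_mul_right _ hi

/-- **(U1)** The normalised mass of a top. -/
theorem ratio_le (h : PathOK m w0 Kc n κr S0 pos) {j i : ℕ} (hj : j ≤ n)
    (hi : i < (2 ^ m) ^ (n - j)) :
    (mass m S0 j i : ℝ) / wd m w0 j (cl (lab m w0 S0 pos n κr j i)) ≤ 1 := by
  have h1 : (0 : ℝ) < wd m w0 j (cl (lab m w0 S0 pos n κr j i)) := by
    exact_mod_cast wd_pos h.w0_pos _ _
  rw [div_le_one h1]
  exact_mod_cast h.mass_le_lab hj hi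

theorem le_ratio (h : PathOK m w0 Kc n κr S0 pos) {j i : ℕ} (hj : j < n) :
    1 / 8 ≤ (mass m S0 j i : ℝ) / wd m w0 j (cl (lab m w0 S0 pos n κr j i)) := by
  have h1 : (0 : ℝ) < wd m w0 j (cl (lab m w0 S0 pos n κr j i)) := by
    exact_mod_cast wd_pos h.w0_pos _ _
  have h2 : (wd m w0 j (cl (lab m w0 S0 pos n κr j i)) : ℝ) ≤ 8 * mass m S0 j i := by
    exact_mod_cast h.wd_le_lab (pos := pos) (i := i) hj
  rw [le_div_iff₀ h1]
  linarith

/-! ### Weights of the units -/

/-- The weight of the label `x` in a machine of class `c`. -/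
def wt (c x : ℕ) : ℕ := 2 ^ (cl x - c)

theorem wt_pos (c x : ℕ) : 0 < wt c x := by unfold wt; positivity

theorem wt_mul_wd_le (m w0 j c x : ℕ) :
    wt c x * wd m w0 j c ≤ wd m w0 j c + wd m w0 j (cl x) := by
  unfold wt wd
  rcases Nat.le_total (cl x) c with h | h
  · rw [Nat.sub_eq_zero_of_le h, pow_zero, one_mul]
    exact Nat.le_add_right _ _
  · rw [← mul_assoc, ← pow_add, Nat.sub_add_cancel h]
    exact Nat.le_add_left _ _

theorem wd_le_wt_mul (m w0 j c x : ℕ) : wd m w0 j (cl x) ≤ wt c x * wd m w0 j c := by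
  unfold wt wd
  rw [← mul_assoc (2 ^ (cl x - c)) (2 ^ c), ← pow_add]
  exact Nat.mul_le_mul_right _ (Nat.pow_le_pow_right (by norm_num) (by omega))

/-- **(U8)** The mass of a unit is at most its weight, in units of the machine. -/
theorem unit_mass_le (h : PathOK m w0 Kc n κr S0 pos) {j i : ℕ} (hj : j ≤ n)
    (hi : i < (2 ^ m) ^ (n - j)) (c : ℕ) :
    mass m S0 j i ≤ wt c (lab m w0 S0 pos n κr j i) * wd m w0 j c :=
  (h.mass_le_lab hj hi).trans (wd_le_wt_mul m w0 j c _)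

/-- **(U1)**, in units of the machine. -/
theorem top_mass_le (h : PathOK m w0 Kc n κr S0 pos) {j e i : ℕ} (hj : j + e ≤ n)
    (hi : i < (2 ^ m) ^ (n - (j + e))) :
    mass m S0 (j + e) i ≤
      (2 ^ m) ^ e * wd m w0 j (cl (lab m w0 S0 pos n κr (j + e) i)) := by
  rw [← wd_add]
  exact h.mass_le_lab hj hi

theorem le_top_mass (h : PathOK m w0 Kc n κr S0 pos) {j e i : ℕ} (hj : j + e < n) :
    (2 ^ m) ^ e * wd m w0 j (cl (lab m w0 S0 pos n κr (j + e) i)) ≤
      8 * mass m S0 (j + e) i := by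
  rw [← wd_add]
  exact h.wd_le_lab hj

/-- Sum of the widths of the units of the path. -/
theorem sum_wd_le (h : PathOK m w0 Kc n κr S0 pos) {j e i : ℕ} (he : 0 < e) (hj : j + e ≤ n)
    (hi : i < (2 ^ m) ^ (n - (j + e))) :
    ∑ r ∈ range ((2 ^ m) ^ e), wd m w0 j (cl (lab m w0 S0 pos n κr j (i * (2 ^ m) ^ e + r))) ≤
      8 * wd m w0 (j + e) (cl (lab m w0 S0 pos n κr (j + e) i)) := by
  calc _ ≤ ∑ r ∈ range ((2 ^ m) ^ e), 8 * mass m S0 j (i * (2 ^ m) ^ e + r) :=
        sum_le_sum fun r _ => h.wd_le_lab (by omega)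
    _ = 8 * mass m S0 (j + e) i := by rw [← mul_sum, mass_add]
    _ ≤ _ := Nat.mul_le_mul_left _ (h.mass_le_lab hj hi)

/-- **(U2)** The average weight of the units of the path is at most `9`. -/
theorem sum_wt_le (h : PathOK m w0 Kc n κr S0 pos) {j e i : ℕ} (he : 0 < e) (hj : j + e ≤ n)
    (hi : i < (2 ^ m) ^ (n - (j + e))) :
    ∑ r ∈ range ((2 ^ m) ^ e), wt (cl (lab m w0 S0 pos n κr (j + e) i))
        (lab m w0 S0 pos n κr j (i * (2 ^ m) ^ e + r)) ≤ 9 * (2 ^ m) ^ e := by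
  set c := cl (lab m w0 S0 pos n κr (j + e) i) with hc
  have hW := wd_pos (m := m) h.w0_pos j c
  refine Nat.le_of_mul_le_mul_right ?_ hW
  rw [sum_mul]
  calc _ ≤ ∑ r ∈ range ((2 ^ m) ^ e), (wd m w0 j c +
          wd m w0 j (cl (lab m w0 S0 pos n κr j (i * (2 ^ m) ^ e + r)))) :=
        sum_le_sum fun r _ => wt_mul_wd_le m w0 j c _
    _ ≤ (2 ^ m) ^ e * wd m w0 j c + 8 * wd m w0 (j + e) c := by
        rw [sum_add_distrib, sum_const, card_range, smul_eq_mul]
        exact Nat.add_le_add_left (sum_wd_le h he hj hi) _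
    _ = 9 * (2 ^ m) ^ e * wd m w0 j c := by rw [wd_add]; ring

/-! ### Light units -/

/-- The unit with label `x` is light for a top of class `c`, `e` levels above. -/
def Light (m e c x : ℕ) : Prop := cl x + 3 * (e * m) < c

instance (m e c x : ℕ) : Decidable (Light m e c x) := by unfold Light; infer_instance

/-- **(U3)** The light units have a small share of the mass. -/
theorem light_mass_le (h : PathOK m w0 Kc n κr S0 pos) {j e i : ℕ} (hj : j + e ≤ n)
    (hi : i < (2 ^ m) ^ (n - (j + e))) :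
    ((2 ^ m) ^ e) ^ 3 * ∑ r ∈ (range ((2 ^ m) ^ e)).filter (fun r =>
        Light m e (cl (lab m w0 S0 pos n κr (j + e) i))
          (lab m w0 S0 pos n κr j (i * (2 ^ m) ^ e + r))),
        mass m S0 j (i * (2 ^ m) ^ e + r) ≤
      wd m w0 (j + e) (cl (lab m w0 S0 pos n κr (j + e) i)) := by
  set c := cl (lab m w0 S0 pos n κr (j + e) i) with hc
  rw [mul_sum, wd_add]
  have h1 : ∀ r ∈ (range ((2 ^ m) ^ e)).filter (fun r =>
        Light m e c (lab m w0 S0 pos n κr j (i * (2 ^ m) ^ e + r))),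
        ((2 ^ m) ^ e) ^ 3 * mass m S0 j (i * (2 ^ m) ^ e + r) ≤ wd m w0 j c := by
    intro r hr
    obtain ⟨hr1, hr2⟩ := mem_filter.1 hr
    have h2 := h.mass_le_lab (j := j) (i := i * (2 ^ m) ^ e + r) (by omega)
      (unit_lt hj hi (mem_range.1 hr1))
    refine (Nat.mul_le_mul_left _ h2).trans ?_
    unfold Light at hr2
    unfold wd
    rw [← mul_assoc]
    refine Nat.mul_le_mul_right _ ?_
    rw [← pow_mul, ← pow_mul, ← pow_add]
    refine Nat.pow_le_pow_right (by norm_num) ?_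
    have : m * (e * 3) = 3 * (e * m) := by ring
    omega
  refine (sum_le_sum h1).trans ?_
  rw [sum_const, smul_eq_mul]
  refine Nat.mul_le_mul_right _ ?_
  exact (card_filter_le _ _).trans (le_of_eq (card_range _))

/-- **(U3)**, as a share of the mass of the top. -/
theorem light_share_le (h : PathOK m w0 Kc n κr S0 pos) {j e i : ℕ} (hj : j + e < n)
    (hi : i < (2 ^ m) ^ (n - (j + e))) :
    ((∑ r ∈ (range ((2 ^ m) ^ e)).filter (fun r =>
        Light m e (cl (lab m w0 S0 pos n κr (j + e) i))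
          (lab m w0 S0 pos n κr j (i * (2 ^ m) ^ e + r))),
        mass m S0 j (i * (2 ^ m) ^ e + r) : ℕ) : ℝ) ≤
      8 / (((2 : ℝ) ^ m) ^ e) ^ 3 * mass m S0 (j + e) i := by
  have h1 := (light_mass_le h hj.le hi).trans (h.wd_le_lab (pos := pos) (i := i) hj)
  have hK : (0 : ℝ) < (((2 : ℝ) ^ m) ^ e) ^ 3 := by positivity
  rw [div_mul_eq_mul_div, le_div_iff₀ hK, mul_comm]
  exact_mod_cast h1

/-! ### Labels of the descendants -/

section desc

variable {ℓ μ B J S H D1 : ℕ}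

/-- **(U4)** Class and accumulated variation of a descendant. -/
theorem desc_bounds : ∀ (e j a x : ℕ), x ∈ (clsPar m ℓ μ B w0 J S H Kc D1).desc j e a →
    cl x ≤ cl a + e * m ∧ ac a ≤ ac x ∧ ac x + cl x ≤ ac a + cl a + 2 * (e * m)
  | 0, j, a, x, h => by
    have : x = a := by simpa [C.Par.desc] using h
    subst this
    omega
  | e + 1, j, a, x, h => by
    obtain ⟨a', h1, h2⟩ := mem_biUnion.1 (show x ∈ ((clsPar m ℓ μ B w0 J S H Kc D1).kids j
      a).biUnion fun a' => (clsPar m ℓ μ B w0 J S H Kc D1).desc (j - 1) e a' from h)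
    obtain ⟨b1, b2, b3⟩ := desc_bounds e (j - 1) a' x h2
    have h3 : a' ∈ kids m Kc a := h1
    obtain ⟨-, h4, -, -, h5⟩ := mem_kids.1 h3
    have h6 : (e + 1) * m = e * m + m := by ring
    unfold Nat.dist at h5
    omega

/-- The classes of the descendants are at most `Kc`. -/
theorem desc_cl_le : ∀ (e j a x : ℕ), x ∈ (clsPar m ℓ μ B w0 J S H Kc D1).desc j (e + 1) a →
    cl x ≤ Kc
  | 0, j, a, x, h => by
    obtain ⟨a', h1, h2⟩ := mem_biUnion.1 (show x ∈ ((clsPar m ℓ μ B w0 J S H Kc D1).kids j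
      a).biUnion fun a' => (clsPar m ℓ μ B w0 J S H Kc D1).desc (j - 1) 0 a' from h)
    have : x = a' := by simpa [C.Par.desc] using h2
    subst this
    exact (mem_kids.1 (show x ∈ kids m Kc a from h1)).1
  | e + 1, j, a, x, h => by
    obtain ⟨a', h1, h2⟩ := mem_biUnion.1 (show x ∈ ((clsPar m ℓ μ B w0 J S H Kc D1).kids j
      a).biUnion fun a' => (clsPar m ℓ μ B w0 J S H Kc D1).desc (j - 1) (e + 1) a' from h)
    exact desc_cl_le e (j - 1) a' x h2

/-- **(U4)** The variation of a descendant which is not light. -/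
theorem desc_ac_le {e j a x : ℕ} (h : x ∈ (clsPar m ℓ μ B w0 J S H Kc D1).desc j e a)
    (hx : ¬ Light m e (cl a) x) : ac x ≤ ac a + 5 * (e * m) := by
  obtain ⟨-, -, h3⟩ := desc_bounds e j a x h
  unfold Light at hx
  omega

/-- The positions of the descendants' boxes. -/
theorem inBox_of_desc : ∀ (e j a x : ℕ) {p : ℕ},
    x ∈ (clsPar m ℓ μ B w0 J S H Kc D1).desc (j + e) e a → InBox m w0 j x p →
    InBox m w0 (j + e) a p
  | 0, j, a, x, p, h, hp => by
    have : x = a := by simpa [C.Par.desc] using h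
    subst this
    exact hp
  | e + 1, j, a, x, p, h, hp => by
    obtain ⟨a', h1, h2⟩ := mem_biUnion.1 (show x ∈ ((clsPar m ℓ μ B w0 J S H Kc D1).kids
      (j + (e + 1)) a).biUnion fun a' =>
        (clsPar m ℓ μ B w0 J S H Kc D1).desc (j + (e + 1) - 1) e a' from h)
    have h3 : a' ∈ kids m Kc a := h1
    exact inBox_of_kid h3 (inBox_of_desc e j a' x h2 hp)

/-- Descending by one more step at the lower end. -/
theorem desc_snoc {P : C.Par} : ∀ (e j a x y : ℕ), x ∈ P.desc (j + 1 + e) e a →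
    y ∈ P.kids (j + 1) x → y ∈ P.desc (j + (e + 1)) (e + 1) a
  | 0, j, a, x, y, h, hy => by
    have : x = a := by simpa [C.Par.desc] using h
    subst this
    refine mem_biUnion.2 ⟨y, hy, ?_⟩
    simp [C.Par.desc]
  | e + 1, j, a, x, y, h, hy => by
    obtain ⟨a', h1, h2⟩ := mem_biUnion.1 (show x ∈ (P.kids (j + 1 + (e + 1)) a).biUnion
      fun a' => P.desc (j + 1 + (e + 1) - 1) e a' from h)
    have e1 : j + (e + 1 + 1) = j + 1 + (e + 1) := by omega
    have e2 : j + 1 + (e + 1) - 1 = j + 1 + e := by omega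
    have e3 : j + 1 + (e + 1) - 1 = j + (e + 1) := by omega
    rw [e1]
    refine mem_biUnion.2 ⟨a', h1, ?_⟩
    rw [e3]
    rw [e2] at h2
    exact desc_snoc e j a' x y h2 hy

/-- **(U5)** The labels of the path are descendants. -/
theorem lab_mem_desc (h : PathOK m w0 Kc n κr S0 pos) {j : ℕ} : ∀ {e i r : ℕ}, j + e ≤ n →
    i < (2 ^ m) ^ (n - (j + e)) → r < (2 ^ m) ^ e →
    lab m w0 S0 pos n κr j (i * (2 ^ m) ^ e + r) ∈
      (clsPar m ℓ μ B w0 J S H (Kc + 3) D1).desc (j + e) e (lab m w0 S0 pos n κr (j + e) i) := by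
  intro e
  induction e generalizing j with
  | zero =>
    intro i r hj hi hr
    have hr0 : r = 0 := by simpa using hr
    subst hr0
    simp [C.Par.desc]
  | succ e ih =>
    intro i r hj hi hr
    have hM : 0 < 2 ^ m := by positivity
    set q := r / 2 ^ m with hq
    have hr2 := Nat.div_add_mod r (2 ^ m)
    have hq2 : q < (2 ^ m) ^ e := by
      rw [hq, Nat.div_lt_iff_lt_mul hM, ← pow_succ]
      exact hr
    have e1 : j + 1 + e = j + (e + 1) := by omega
    have h1 := ih (j := j + 1) (i := i) (r := q) (by omega) (by rw [e1]; exact hi) hq2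
    have h2 : lab m w0 S0 pos n κr j ((i * (2 ^ m) ^ e + q) * 2 ^ m + r % 2 ^ m) ∈
        kids m (Kc + 3) (lab m w0 S0 pos n κr (j + 1) (i * (2 ^ m) ^ e + q)) :=
      h.kid (by omega) (Nat.mod_lt _ hM) (unit_lt (by omega) (by rw [e1]; exact hi) hq2)
    have e2 : (i * (2 ^ m) ^ e + q) * 2 ^ m + r % 2 ^ m = i * (2 ^ m) ^ (e + 1) + r := by
      rw [pow_succ]
      calc _ = i * ((2 ^ m) ^ e * 2 ^ m) + (2 ^ m * q + r % 2 ^ m) := by ring
        _ = _ := by rw [hr2]
    rw [e2] at h2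
    have h3 := desc_snoc e j _ _ _ h1 h2
    rw [e1] at h3
    exact h3

/-! ### Replacement of the light units -/

/-- A child of a given class which contains a given position. -/
theorem exists_kid {j a p κ0 : ℕ} (hw : 0 < w0) (hp : InBox m w0 (j + 1) a p) (h1 : κ0 ≤ Kc)
    (h2 : κ0 ≤ cl a + m) :
    ∃ x ∈ kids m Kc a, cl x = κ0 ∧ ac x = ac a + Nat.dist κ0 (cl a) ∧ InBox m w0 j x p := by
  have hW := wd_pos (m := m) hw j κ0
  set W := wd m w0 j κ0 with hWd
  set R := 2 ^ (cl a + m - κ0) with hR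
  have hR1 : 1 ≤ R := Nat.one_le_two_pow
  obtain ⟨p1, p2⟩ := hp
  rw [wd_succ (j := j) (w0 := w0) h2] at p1 p2
  have q1 : bx a * R * W ≤ p := by rw [mul_assoc]; exact p1
  have q2 : p ≤ (bx a + 2) * R * W := by rw [mul_assoc]; exact p2
  have h9 : bx a * R + 2 ≤ (bx a + 2) * R := by nlinarith
  have h10 : 2 ≤ (bx a + 2) * R := by omega
  refine ⟨enc κ0 (min (p / W) ((bx a + 2) * R - 2)) (ac a + Nat.dist κ0 (cl a)), ?_, by simp,
    by simp, ?_, ?_⟩
  · rw [mem_kids]
    simp only [cl_enc, bx_enc, ac_enc, and_true]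
    rw [← hR]
    refine ⟨h1, h2, ?_, ?_⟩
    · refine le_min ?_ (by omega)
      rw [Nat.le_div_iff_mul_le hW]
      exact q1
    · have := min_le_right (p / W) ((bx a + 2) * R - 2)
      omega
  · simp only [cl_enc, bx_enc]
    calc min (p / W) ((bx a + 2) * R - 2) * W ≤ p / W * W :=
          Nat.mul_le_mul_right _ (min_le_left _ _)
      _ ≤ p := Nat.div_mul_le_self _ _
  · simp only [cl_enc, bx_enc]
    rcases min_choice (p / W) ((bx a + 2) * R - 2) with hc | hc
    · rw [← hWd, hc]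
      have h8 := Nat.lt_div_mul_add (a := p) (b := W) hW
      calc p ≤ p / W * W + W := h8.le
        _ ≤ (p / W + 2) * W := by nlinarith
    · rw [← hWd, hc, Nat.sub_add_cancel h10]
      exact q2

/-- **(U6)** A descendant of a given smaller class which contains a given position. -/
theorem exists_desc (hw : 0 < w0) : ∀ {e j a p κ0 : ℕ}, InBox m w0 (j + (e + 1)) a p → κ0 ≤ Kc →
    κ0 ≤ cl a + m →
    ∃ x ∈ (clsPar m ℓ μ B w0 J S H Kc D1).desc (j + (e + 1)) (e + 1) a,
      cl x = κ0 ∧ ac x = ac a + Nat.dist κ0 (cl a) ∧ InBox m w0 j x p := by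
  intro e
  induction e with
  | zero =>
    intro j a p κ0 hp h1 h2
    obtain ⟨x, hx, h3, h4, h5⟩ := exists_kid (j := j) hw hp h1 h2
    refine ⟨x, mem_biUnion.2 ⟨x, hx, ?_⟩, h3, h4, h5⟩
    simp [C.Par.desc]
  | succ e ih =>
    intro j a p κ0 hp h1 h2
    obtain ⟨x, hx, h3, h4, h5⟩ := exists_kid (j := j + (e + 1)) hw hp h1 h2
    obtain ⟨y, hy, k1, k2, k3⟩ := ih (j := j) (a := x) h5 h1 (by omega)
    refine ⟨y, mem_biUnion.2 ⟨x, hx, ?_⟩, k1, ?_, k3⟩
    · have e1 : j + (e + 1 + 1) - 1 = j + (e + 1) := by omega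
      rw [e1]
      exact hy
    · rw [k2, h3, Nat.dist_self, add_zero, h4]

/-- **(U2)**, second form: weights times their exponents. -/
theorem sum_wt_mul_le (h : PathOK m w0 Kc n κr S0 pos) {j e i : ℕ} (he : 0 < e) (hj : j + e ≤ n)
    (hi : i < (2 ^ m) ^ (n - (j + e))) :
    ∑ r ∈ range ((2 ^ m) ^ e), wt (cl (lab m w0 S0 pos n κr (j + e) i))
        (lab m w0 S0 pos n κr j (i * (2 ^ m) ^ e + r)) *
        (cl (lab m w0 S0 pos n κr j (i * (2 ^ m) ^ e + r)) -
          cl (lab m w0 S0 pos n κr (j + e) i)) ≤ 9 * (2 ^ m) ^ e * (e * m) := by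
  refine le_trans (sum_le_sum fun r hr => Nat.mul_le_mul_left _ ?_) (by
    rw [← sum_mul]
    exact Nat.mul_le_mul_right (e * m) (sum_wt_le h he hj hi))
  have h1 := (desc_bounds (ℓ := 0) (μ := 0) (B := 0) (J := 0) (S := 0) (H := 0) (D1 := 0) _ _ _ _
    (lab_mem_desc h hj hi (mem_range.1 hr))).1
  omega

/-- **(U7)** The labels of the comparison route of a machine: the labels of the path, with the
light units replaced. -/
theorem exists_xs (h : PathOK m w0 Kc n κr S0 pos) {j e i : ℕ} (he : 0 < e) (hj : j + e ≤ n)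
    (hi : i < (2 ^ m) ^ (n - (j + e))) :
    ∃ xs : ℕ → ℕ,
      (∀ r < (2 ^ m) ^ e,
        xs r ∈ (clsPar m ℓ μ B w0 J S H (Kc + 3) D1).desc (j + e) e
          (lab m w0 S0 pos n κr (j + e) i) ∧
        ¬ Light m e (cl (lab m w0 S0 pos n κr (j + e) i)) (xs r) ∧
        cl (xs r) ≤ cl (lab m w0 S0 pos n κr (j + e) i) + e * m ∧
        ac (xs r) ≤ ac (lab m w0 S0 pos n κr (j + e) i) + 5 * (e * m) ∧
        InBox m w0 j (xs r) (pos ((i * (2 ^ m) ^ e + r) * (2 ^ m) ^ j)) ∧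
        (¬ Light m e (cl (lab m w0 S0 pos n κr (j + e) i))
            (lab m w0 S0 pos n κr j (i * (2 ^ m) ^ e + r)) →
          xs r = lab m w0 S0 pos n κr j (i * (2 ^ m) ^ e + r)) ∧
        wt (cl (lab m w0 S0 pos n κr (j + e) i)) (xs r) =
          wt (cl (lab m w0 S0 pos n κr (j + e) i))
            (lab m w0 S0 pos n κr j (i * (2 ^ m) ^ e + r))) ∧
      ∑ r ∈ range ((2 ^ m) ^ e), wt (cl (lab m w0 S0 pos n κr (j + e) i)) (xs r) ≤
        9 * (2 ^ m) ^ e ∧
      ∑ r ∈ range ((2 ^ m) ^ e), wt (cl (lab m w0 S0 pos n κr (j + e) i)) (xs r) *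
        (cl (xs r) - cl (lab m w0 S0 pos n κr (j + e) i)) ≤ 9 * (2 ^ m) ^ e * (e * m) := by
  obtain ⟨e, rfl⟩ : ∃ e', e = e' + 1 := ⟨e - 1, by omega⟩
  set a := lab m w0 S0 pos n κr (j + (e + 1)) i with ha
  have hT : 0 < (2 ^ m) ^ j := by positivity
  have key : ∀ r, ∃ x, r < (2 ^ m) ^ (e + 1) →
      (x ∈ (clsPar m ℓ μ B w0 J S H (Kc + 3) D1).desc (j + (e + 1)) (e + 1) a ∧
        ¬ Light m (e + 1) (cl a) x ∧
        InBox m w0 j x (pos ((i * (2 ^ m) ^ (e + 1) + r) * (2 ^ m) ^ j)) ∧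
        (¬ Light m (e + 1) (cl a) (lab m w0 S0 pos n κr j (i * (2 ^ m) ^ (e + 1) + r)) →
          x = lab m w0 S0 pos n κr j (i * (2 ^ m) ^ (e + 1) + r)) ∧
        (Light m (e + 1) (cl a) (lab m w0 S0 pos n κr j (i * (2 ^ m) ^ (e + 1) + r)) →
          cl x ≤ cl a)) := by
    intro r
    by_cases hr : r < (2 ^ m) ^ (e + 1)
    swap
    · exact ⟨0, fun h' => absurd h' hr⟩
    have hu := unit_lt hj hi hr
    by_cases hl : Light m (e + 1) (cl a) (lab m w0 S0 pos n κr j (i * (2 ^ m) ^ (e + 1) + r))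
    · have hin : InBox m w0 (j + (e + 1)) a
          (pos ((i * (2 ^ m) ^ (e + 1) + r) * (2 ^ m) ^ j)) := by
        have e3 : (2 ^ m) ^ (j + (e + 1)) = (2 ^ m) ^ (e + 1) * (2 ^ m) ^ j := by
          rw [add_comm j, pow_add]
        refine h.inBox_lab hj hi ?_ ?_
        · rw [e3, ← mul_assoc]
          exact Nat.mul_le_mul_right _ (Nat.le_add_right _ _)
        · rw [e3, ← mul_assoc]
          refine Nat.mul_le_mul_right _ ?_
          have : (i + 1) * (2 ^ m) ^ (e + 1) = i * (2 ^ m) ^ (e + 1) + (2 ^ m) ^ (e + 1) := by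
            ring
          omega
      have hc := h.cl_le (pos := pos) (j + (e + 1)) i
      rw [← ha] at hc
      obtain ⟨x, hx, h1, h2, h3⟩ := exists_desc (ℓ := ℓ) (μ := μ) (B := B) (J := J) (S := S)
        (H := H) (D1 := D1) (Kc := Kc + 3) h.w0_pos (κ0 := cl a - 3 * ((e + 1) * m)) hin
        (by omega) (by omega)
      refine ⟨x, fun _ => ⟨hx, ?_, h3, fun h' => absurd hl h', fun _ => by omega⟩⟩
      unfold Light
      omega
    · refine ⟨lab m w0 S0 pos n κr j (i * (2 ^ m) ^ (e + 1) + r), fun _ =>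
        ⟨lab_mem_desc h hj hi hr, hl, ?_, fun _ => rfl, fun h' => absurd h' hl⟩⟩
      exact h.inBox_lab (by omega) hu le_rfl (Nat.mul_le_mul_right _ (Nat.le_succ _))
  choose xs hxs using key
  have hwt : ∀ r < (2 ^ m) ^ (e + 1), cl (xs r) - cl a =
      cl (lab m w0 S0 pos n κr j (i * (2 ^ m) ^ (e + 1) + r)) - cl a := by
    intro r hr
    obtain ⟨-, -, -, h4, h5⟩ := hxs r hr
    by_cases hl : Light m (e + 1) (cl a) (lab m w0 S0 pos n κr j (i * (2 ^ m) ^ (e + 1) + r))
    · have := h5 hl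
      unfold Light at hl
      omega
    · rw [h4 hl]
  refine ⟨xs, ?_, ?_, ?_⟩
  · intro r hr
    obtain ⟨h1, h2, h3, h4, h5⟩ := hxs r hr
    refine ⟨h1, h2, (desc_bounds _ _ _ _ h1).1, desc_ac_le h1 h2, h3, h4, ?_⟩
    unfold wt
    rw [hwt r hr]
  · refine le_trans (le_of_eq (sum_congr rfl fun r hr => ?_)) (sum_wt_le h he hj hi)
    unfold wt
    rw [hwt r (mem_range.1 hr)]
  · refine le_trans (le_of_eq (sum_congr rfl fun r hr => ?_)) (sum_wt_mul_le h he hj hi)
    unfold wt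
    rw [hwt r (mem_range.1 hr)]

end desc

end Vale.Agent.P315.H869.Units
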