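import Mathlib

/-!
P315, milestone 2: cost of the comparison route of a machine (pure numbers).

The machine graph has `K + 2` rows: row `0` and row `K + 1` are shifts, row `u + 1` is the unit `u`.
-/

set_option autoImplicit false

namespace Vale.Agent.P315.H869.PathSum

open Finset

/-- The rows `0`, `u + 1` (`u < K`), `K + 1`. -/
theorem sum_rows_eq (K : ℕ) (d : ℕ → ℝ) :
    ∑ i ∈ range (K + 2), d i = d 0 + ∑ u ∈ range K, d (u + 1) + d (K + 1) := by
  rw [sum_range_succ, sum_range_succ', add_comm (∑ u ∈ range K, d (u + 1)) (d 0)]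

/-- The same over `Fin`. -/
theorem sum_fin_eq (K : ℕ) (d : Fin (K + 2) → ℝ) :
    ∑ i, d i = d 0 + ∑ u : Fin K, d u.succ.castSucc + d (Fin.last (K + 1)) := by
  rw [Fin.sum_univ_castSucc, Fin.sum_univ_succ]
  rfl

/-- The same over `Fin`, for a function of the row number. -/
theorem sum_fin_nat (K : ℕ) (d : ℕ → ℝ) :
    ∑ i : Fin (K + 2), d i = d 0 + ∑ u : Fin K, d (u + 1) + d (K + 1) := by
  rw [Fin.sum_univ_eq_sum_range (fun i => d i), sum_rows_eq,
    Fin.sum_univ_eq_sum_range (fun u => d (u + 1))]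

variable {K : ℕ} {dn cU w : ℕ → ℝ} {light : ℕ → Prop} [DecidablePred light] {r re W Z sh : ℝ}

/-- **Sum of the rows**, first form: no normalisation. -/
theorem sum_rows_le (hu : ∀ u < K, ¬ light u → dn (u + 1) ≤ cU u + r)
    (hl : ∀ u < K, light u → dn (u + 1) ≤ cU u + w u + r)
    (h0 : dn 0 ≤ re) (h1 : dn (K + 1) ≤ re) :
    ∑ i ∈ range (K + 2), dn i ≤ ∑ u ∈ range K, cU u +
      (∑ u ∈ (range K).filter light, w u + (K * r + 2 * re)) := by
  rw [sum_rows_eq]
  have h2 : ∑ u ∈ range K, dn (u + 1) ≤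
      ∑ u ∈ range K, (cU u + (if light u then w u else 0) + r) := by
    refine sum_le_sum fun u hu' => ?_
    have hu'' := mem_range.1 hu'
    by_cases hlu : light u
    · rw [if_pos hlu]; exact hl u hu'' hlu
    · rw [if_neg hlu, add_zero]; exact hu u hu'' hlu
  have h3 : ∑ u ∈ range K, (cU u + (if light u then w u else 0) + r) =
      ∑ u ∈ range K, cU u + ∑ u ∈ (range K).filter light, w u + K * r := by
    rw [sum_add_distrib, sum_add_distrib, sum_const, card_range, nsmul_eq_mul, sum_filter]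
  linarith

/-- **Sum of the rows**, normalised: the error is `W * rt`. -/
theorem sum_rows_rt (hK : 0 < K) (hu : ∀ u < K, ¬ light u → dn (u + 1) ≤ cU u + r)
    (hl : ∀ u < K, light u → dn (u + 1) ≤ cU u + w u + r)
    (h0 : dn 0 ≤ re) (h1 : dn (K + 1) ≤ re) (hr : 0 ≤ r) (hre : 0 ≤ re) (hZ : 0 < Z)
    (hW : K * Z ≤ 8 * W) (hsh : ∑ u ∈ (range K).filter light, w u ≤ sh * W) :
    ∑ i ∈ range (K + 2), dn i ≤ ∑ u ∈ range K, cU u +
      W * (8 * (K * r + 2 * re) / (K * Z) + sh) := by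
  have h2 := sum_rows_le hu hl h0 h1
  have hK' : (0 : ℝ) < K := by exact_mod_cast hK
  have hKZ : 0 < K * Z := mul_pos hK' hZ
  have h3 : K * r + 2 * re ≤ W * (8 * (K * r + 2 * re) / (K * Z)) := by
    rw [mul_div_assoc', le_div_iff₀ hKZ]
    have h4 : 0 ≤ K * r + 2 * re := by positivity
    nlinarith
  linarith

/-- The same, with the numbers of the machine: `r = 4 Z / g`, `re = 2 (K Z / g + Z / g)`. -/
theorem rt_le {g : ℝ} (hK : 0 < K) (hZ : 0 < Z) (hg : 0 < g) (hr : r ≤ 4 * (Z / g))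
    (hre : re ≤ 2 * (K * Z / g + Z / g)) :
    8 * (K * r + 2 * re) / (K * Z) ≤ 96 / g := by
  have hK' : (1 : ℝ) ≤ K := by exact_mod_cast hK
  have hKZ : 0 < K * Z := by positivity
  rw [div_le_div_iff₀ hKZ hg]
  have hr' : r * g ≤ 4 * Z := by
    have := mul_le_mul_of_nonneg_right hr hg.le
    calc r * g ≤ 4 * (Z / g) * g := this
      _ = 4 * Z := by field_simp
  have hre' : re * g ≤ 2 * (K * Z + Z) := by
    have := mul_le_mul_of_nonneg_right hre hg.le
    calc re * g ≤ 2 * (K * Z / g + Z / g) * g := this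
      _ = 2 * (K * Z + Z) := by field_simp
  have h1 : Z ≤ K * Z := by nlinarith
  nlinarith [mul_le_mul_of_nonneg_left hr' (by linarith : (0 : ℝ) ≤ K)]

/-- **(v) of `P'`**: sum over all rows, `rt = 150 / g + sh`. -/
theorem sum_rows_150 {g : ℝ} (hK : 0 < K) (hu : ∀ u < K, ¬ light u → dn (u + 1) ≤ cU u + r)
    (hl : ∀ u < K, light u → dn (u + 1) ≤ cU u + w u + r)
    (h0 : dn 0 ≤ re) (h1 : dn (K + 1) ≤ re) (hr0 : 0 ≤ r) (hre0 : 0 ≤ re) (hZ : 0 < Z)
    (hg : 0 < g) (hr : r ≤ 4 * (Z / g)) (hre : re ≤ 2 * (K * Z / g + Z / g))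
    (hW : K * Z ≤ 8 * W) (hsh : ∑ u ∈ (range K).filter light, w u ≤ sh * W) :
    ∑ i ∈ range (K + 2), dn i ≤ ∑ u ∈ range K, cU u + W * (150 / g + sh) := by
  refine (sum_rows_rt hK hu hl h0 h1 hr0 hre0 hZ hW hsh).trans ?_
  have hK' : (0 : ℝ) < K := by exact_mod_cast hK
  have hW0 : 0 ≤ W := by
    have : 0 < K * Z := mul_pos hK' hZ
    linarith
  have h2 := rt_le (Z := Z) (r := r) (re := re) hK hZ hg hr hre
  have h3 : 96 / g ≤ 150 / g := by
    rw [div_le_div_iff_of_pos_right hg]; norm_num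
  have h4 := mul_le_mul_of_nonneg_left (show 8 * (K * r + 2 * re) / (K * Z) + sh ≤ 150 / g + sh by
    linarith) hW0
  linarith

/-- The same for sums over `Fin (K + 2)` and `Fin K`. -/
theorem sum_fin_150 {g : ℝ} (hK : 0 < K) (hu : ∀ u < K, ¬ light u → dn (u + 1) ≤ cU u + r)
    (hl : ∀ u < K, light u → dn (u + 1) ≤ cU u + w u + r)
    (h0 : dn 0 ≤ re) (h1 : dn (K + 1) ≤ re) (hr0 : 0 ≤ r) (hre0 : 0 ≤ re) (hZ : 0 < Z)
    (hg : 0 < g) (hr : r ≤ 4 * (Z / g)) (hre : re ≤ 2 * (K * Z / g + Z / g))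
    (hW : K * Z ≤ 8 * W) (hsh : ∑ u ∈ (range K).filter light, w u ≤ sh * W) :
    ∑ i : Fin (K + 2), dn i ≤ ∑ u : Fin K, cU u + W * (150 / g + sh) := by
  rw [Fin.sum_univ_eq_sum_range (fun i => dn i), Fin.sum_univ_eq_sum_range (fun u => cU u)]
  exact sum_rows_150 hK hu hl h0 h1 hr0 hre0 hZ hg hr hre hW hsh

/-- One bound for all unit rows. -/
theorem row_le (hu : ∀ u < K, ¬ light u → dn (u + 1) ≤ cU u + r)
    (hl : ∀ u < K, light u → dn (u + 1) ≤ cU u + w u + r) :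
    ∀ u < K, dn (u + 1) ≤ cU u + (if light u then w u else 0) + r := by
  intro u hu'
  by_cases hlu : light u
  · rw [if_pos hlu]; exact hl u hu' hlu
  · rw [if_neg hlu, add_zero]; exact hu u hu' hlu

end Vale.Agent.P315.H869.PathSum
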