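import Mathlib

/-! The mass-biased measure on the leaves of a tree, and the variation of the logarithmic density
along a random lineage. `X` = leaves, `q j x` = the ancestor of `x` at level `j`, `w` = base
weights, `H` = density. -/

set_option autoImplicit false

open Finset

namespace Vale.Agent.P315.H869

section Avg

variable {X : Type*} [Fintype X]

/-- The leaves with the same ancestor at level `j` as `x`. -/
def cell (q : ℕ → X → ℕ) (j : ℕ) (x : X) : Finset X := univ.filter fun y => q j y = q j x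

/-- Weighted average over the node at level `j` above `x`. -/
noncomputable def avg (q : ℕ → X → ℕ) (w : X → ℝ) (j : ℕ) (f : X → ℝ) (x : X) : ℝ :=
  (∑ y ∈ cell q j x, w y * f y) / ∑ y ∈ cell q j x, w y

variable {q : ℕ → X → ℕ} {w : X → ℝ} {j : ℕ}

theorem mem_cell {x y : X} : y ∈ cell q j x ↔ q j y = q j x := by simp [cell]

theorem cell_self (x : X) : x ∈ cell q j x := mem_cell.2 rfl

theorem cell_congr {x y : X} (h : q j x = q j y) : cell q j x = cell q j y := by
  unfold cell; rw [h]

theorem cellW_pos (hw : ∀ x, 0 < w x) (x : X) : 0 < ∑ y ∈ cell q j x, w y :=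
  sum_pos (fun y _ => hw y) ⟨x, cell_self x⟩

theorem avg_congr (f : X → ℝ) {x y : X} (h : q j x = q j y) :
    avg q w j f x = avg q w j f y := by
  unfold avg; rw [cell_congr h]

theorem avg_pos (hw : ∀ x, 0 < w x) {f : X → ℝ} (hf : ∀ x, 0 < f x) (x : X) :
    0 < avg q w j f x :=
  div_pos (sum_pos (fun y _ => mul_pos (hw y) (hf y)) ⟨x, cell_self x⟩) (cellW_pos hw x)

/-- Pull-out property. -/
theorem sum_avg_mul (hw : ∀ x, 0 < w x) (f g : X → ℝ) (hg : ∀ x y, q j x = q j y → g x = g y) :
    ∑ x, w x * avg q w j f x * g x = ∑ x, w x * f x * g x := by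
  classical
  have h1 : ∀ x, w x * avg q w j f x * g x =
      ∑ y, if q j y = q j x then w x * g x * (w y * f y) / ∑ z ∈ cell q j x, w z else 0 := by
    intro x
    rw [← sum_filter]
    unfold avg
    rw [show (univ.filter fun y => q j y = q j x) = cell q j x from rfl, ← sum_div,
      ← mul_sum]
    ring
  rw [sum_congr rfl fun x _ => h1 x, sum_comm]
  refine sum_congr rfl fun y _ => ?_
  have h2 : ∀ x, (if q j y = q j x then w x * g x * (w y * f y) / ∑ z ∈ cell q j x, w z else 0) =
      if q j x = q j y then w x * (g y * (w y * f y) / ∑ z ∈ cell q j y, w z) else 0 := by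
    intro x
    by_cases h : q j x = q j y
    · rw [if_pos h.symm, if_pos h, hg x y h, cell_congr h]; ring
    · rw [if_neg (fun h' => h h'.symm), if_neg h]
  rw [sum_congr rfl fun x _ => h2 x, ← sum_filter,
    show (univ.filter fun x => q j x = q j y) = cell q j y from rfl, ← sum_mul]
  have h3 := (cellW_pos (q := q) (j := j) hw y).ne'
  field_simp

/-- The total mass is the same at every level. -/
theorem sum_avg (hw : ∀ x, 0 < w x) (f : X → ℝ) :
    ∑ x, w x * avg q w j f x = ∑ x, w x * f x := by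
  have := sum_avg_mul (q := q) (j := j) hw f (fun _ => 1) (fun _ _ _ => rfl)
  simpa using this

end Avg

/-! ### Scalar inequalities -/

theorem xlogx_ge {r : ℝ} (hr : 0 < r) (hr1 : r ≤ 1) : (1 - r) ^ 2 / 2 ≤ r * Real.log r - r + 1 := by
  -- `f r = r log r - r + 1 - (1 - r)^2/2` is antitone on `(0,1]`
  have hanti : AntitoneOn (fun r : ℝ => r * Real.log r - r + 1 - (1 - r) ^ 2 / 2) (Set.Icc r 1) := by
    apply antitoneOn_of_deriv_nonpos (convex_Icc r 1)
    · apply ContinuousOn.sub
      · apply ContinuousOn.add _ continuousOn_const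
        apply ContinuousOn.sub _ continuousOn_id
        apply ContinuousOn.mul continuousOn_id
        apply Real.continuousOn_log.mono
        intro y hy
        simp only [Set.mem_compl_iff, Set.mem_singleton_iff]
        exact (lt_of_lt_of_le hr hy.1).ne'
      · fun_prop
    · intro y hy
      rw [interior_Icc] at hy
      have hy0 : y ≠ 0 := (hr.trans hy.1).ne'
      have h1 : DifferentiableAt ℝ Real.log y := Real.differentiableAt_log hy0
      apply DifferentiableAt.differentiableWithinAt
      fun_prop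
    · intro y hy
      rw [interior_Icc] at hy
      have hy0 : 0 < y := hr.trans hy.1
      have hd : HasDerivAt (fun r : ℝ => r * Real.log r - r + 1 - (1 - r) ^ 2 / 2)
          (Real.log y + 1 - y) y := by
        have h1 : HasDerivAt (fun r : ℝ => r * Real.log r) (Real.log y + 1) y :=
          ((hasDerivAt_id' y).fun_mul (Real.hasDerivAt_log hy0.ne')).congr_deriv (by
            rw [mul_inv_cancel₀ hy0.ne', one_mul])
        have h2 : HasDerivAt (fun r : ℝ => (1 - r) ^ 2 / 2) (-(1 - y)) y :=
          ((((hasDerivAt_id' y).const_sub 1).fun_pow 2).div_const 2).congr_deriv (by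
            norm_num
            ring)
        exact (((h1.fun_sub (hasDerivAt_id' y)).add_const 1).fun_sub h2).congr_deriv (by ring)
      rw [hd.deriv]
      have := Real.log_le_sub_one_of_pos hy0
      linarith
  have := hanti (Set.left_mem_Icc.2 hr1) (Set.right_mem_Icc.2 hr1) hr1
  simp at this
  linarith

theorem xlogx_ge' {r : ℝ} (hr : 0 < r) :
    (max (1 - r) 0) ^ 2 / 2 ≤ r * Real.log r - r + 1 := by
  rcases le_total r 1 with h | h
  · rw [max_eq_left (by linarith)]
    exact xlogx_ge hr h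
  · rw [max_eq_right (by linarith)]
    have h1 := Real.one_sub_inv_le_log_of_pos hr
    have h2 : r * (1 - r⁻¹) ≤ r * Real.log r := mul_le_mul_of_nonneg_left h1 hr.le
    have h3 : r * (1 - r⁻¹) = r - 1 := by field_simp
    nlinarith

theorem neg_xlogx_le {r : ℝ} (hr : 0 < r) :
    r * max (-Real.log r) 0 ≤ max (1 - r) 0 := by
  rcases le_total r 1 with h | h
  · have h0 : Real.log r ≤ 0 := Real.log_nonpos hr.le h
    rw [max_eq_left (by linarith), max_eq_left (by linarith)]
    have h1 := Real.one_sub_inv_le_log_of_pos hr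
    have h2 : r * (1 - r⁻¹) ≤ r * Real.log r := mul_le_mul_of_nonneg_left h1 hr.le
    have h3 : r * (1 - r⁻¹) = r - 1 := by field_simp
    nlinarith
  · have h0 : 0 ≤ Real.log r := Real.log_nonneg h
    rw [max_eq_right (by linarith), max_eq_right (by linarith)]
    simp

/-! ### Variation of the logarithmic density along a mass-biased lineage -/

section Var

variable {X : Type*} [Fintype X] {q : ℕ → X → ℕ} {w H : X → ℝ}

omit [Fintype X] in
/-- Nestedness from level `j` up. -/
theorem nested_le (hq : ∀ j x y, q j x = q j y → q (j + 1) x = q (j + 1) y) {i j : ℕ} (hij : i ≤ j)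
    {x y : X} (h : q i x = q i y) : q j x = q j y := by
  induction j, hij using Nat.le_induction with
  | base => exact h
  | succ k _ ih => exact hq k x y ih

/-- Increment of the log-density from level `j + 1` to level `j`. -/
noncomputable def inc (q : ℕ → X → ℕ) (w H : X → ℝ) (j : ℕ) (x : X) : ℝ :=
  Real.log (avg q w j H x) - Real.log (avg q w (j + 1) H x)

/-- Expectation under the mass-biased measure. -/
noncomputable def EQ (w H : X → ℝ) (f : X → ℝ) : ℝ :=
  (∑ x, w x * H x * f x) / ∑ x, w x * H x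

theorem Z_pos [Nonempty X] (hw : ∀ x, 0 < w x) (hH : ∀ x, 0 < H x) : 0 < ∑ x, w x * H x :=
  sum_pos (fun x _ => mul_pos (hw x) (hH x)) univ_nonempty

theorem EQ_mono [Nonempty X] (hw : ∀ x, 0 < w x) (hH : ∀ x, 0 < H x) {f g : X → ℝ}
    (h : ∀ x, f x ≤ g x) : EQ w H f ≤ EQ w H g := by
  unfold EQ
  gcongr with x _
  · exact (Z_pos hw hH).le
  · exact (mul_pos (hw x) (hH x)).le
  · exact h x

theorem EQ_const [Nonempty X] (hw : ∀ x, 0 < w x) (hH : ∀ x, 0 < H x) (c : ℝ) :
    EQ w H (fun _ => c) = c := by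
  unfold EQ
  rw [← sum_mul, mul_div_assoc, mul_comm, div_mul_cancel₀ _ (Z_pos hw hH).ne']

theorem EQ_add (f g : X → ℝ) : EQ w H (fun x => f x + g x) = EQ w H f + EQ w H g := by
  unfold EQ
  rw [← add_div, ← sum_add_distrib]
  congr 1
  exact sum_congr rfl fun x _ => by ring

theorem EQ_sum {ι : Type*} (s : Finset ι) (f : ι → X → ℝ) :
    EQ w H (fun x => ∑ i ∈ s, f i x) = ∑ i ∈ s, EQ w H (f i) := by
  unfold EQ
  rw [← sum_div]
  congr 1
  rw [sum_comm]
  exact sum_congr rfl fun x _ => by rw [mul_sum]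

theorem inc_congr {j : ℕ} (hq : ∀ j x y, q j x = q j y → q (j + 1) x = q (j + 1) y) {x y : X}
    (h : q j x = q j y) : inc q w H j x = inc q w H j y := by
  unfold inc
  rw [avg_congr H h, avg_congr H (hq j x y h)]

/-- The basic one-level estimate: `(E Δ⁻)² ≤ 2 E Δ`. -/
theorem neg_sq_le [Nonempty X] (hq : ∀ j x y, q j x = q j y → q (j + 1) x = q (j + 1) y)
    (hw : ∀ x, 0 < w x) (hH : ∀ x, 0 < H x) (j : ℕ) :
    (EQ w H fun x => max (-inc q w H j x) 0) ^ 2 ≤ 2 * EQ w H (inc q w H j) := by
  set A := avg q w j H with hA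
  set B := avg q w (j + 1) H with hB
  have hAp : ∀ x, 0 < A x := fun x => avg_pos hw hH x
  have hBp : ∀ x, 0 < B x := fun x => avg_pos hw hH x
  set r : X → ℝ := fun x => A x / B x with hr
  have hrp : ∀ x, 0 < r x := fun x => div_pos (hAp x) (hBp x)
  have hinc : ∀ x, inc q w H j x = Real.log (r x) := fun x => by
    rw [hr]; dsimp only
    rw [Real.log_div (hAp x).ne' (hBp x).ne']; rfl
  set Z := ∑ x, w x * H x with hZ
  have hZp : 0 < Z := Z_pos hw hH
  have hZA : ∑ x, w x * A x = Z := sum_avg hw H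
  have hZB : ∑ x, w x * B x = Z := sum_avg hw H
  -- change of measure
  have hch : ∀ g : X → ℝ, (∀ x y, q j x = q j y → g x = g y) →
      ∑ x, w x * H x * g x = ∑ x, w x * B x * (r x * g x) := by
    intro g hg
    rw [← sum_avg_mul hw H g hg]
    refine sum_congr rfl fun x _ => ?_
    have := (hBp x).ne'
    have h2 : B x * r x = A x := by rw [hr]; field_simp
    calc w x * avg q w j H x * g x = w x * (B x * r x) * g x := by rw [h2]
      _ = _ := by ring
  have hrc : ∀ x y, q j x = q j y → r x = r y := fun x y h => by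
    rw [hr]; dsimp only
    rw [hA, hB, avg_congr H h, avg_congr H (hq j x y h)]
  -- `E Δ`
  have hE : Z * EQ w H (inc q w H j) =
      ∑ x, w x * B x * (r x * Real.log (r x) - r x + 1) := by
    unfold EQ
    rw [← hZ, mul_div_cancel₀ _ hZp.ne']
    rw [sum_congr rfl fun x _ => by rw [hinc x], hch (fun x => Real.log (r x)) (fun x y h => by
      rw [hrc x y h])]
    have h3 : ∑ x, w x * B x * (r x * Real.log (r x) - r x + 1) =
        ∑ x, w x * B x * (r x * Real.log (r x)) - ∑ x, w x * A x + ∑ x, w x * B x := by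
      rw [← sum_sub_distrib, ← sum_add_distrib]
      refine sum_congr rfl fun x _ => ?_
      have h2 : B x * r x = A x := by
        have := (hBp x).ne'
        rw [hr]; field_simp
      rw [← h2]; ring
    rw [h3, hZA, hZB]; ring
  have hN : Z * (EQ w H fun x => max (-inc q w H j x) 0) ≤
      ∑ x, w x * B x * max (1 - r x) 0 := by
    unfold EQ
    rw [← hZ, mul_div_cancel₀ _ hZp.ne']
    rw [show (fun x => max (-inc q w H j x) 0) = fun x => max (-Real.log (r x)) 0 from
      funext fun x => by rw [hinc x],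
      hch (fun x => max (-Real.log (r x)) 0) (fun x y h => by rw [hrc x y h])]
    refine sum_le_sum fun x _ => ?_
    exact mul_le_mul_of_nonneg_left (neg_xlogx_le (hrp x)) (mul_pos (hw x) (hBp x)).le
  have hCS : (∑ x, w x * B x * max (1 - r x) 0) ^ 2 ≤
      (∑ x, w x * B x) * ∑ x, w x * B x * (max (1 - r x) 0) ^ 2 := by
    apply sum_sq_le_sum_mul_sum_of_sq_le_mul
    · exact fun x _ => (mul_pos (hw x) (hBp x)).le
    · exact fun x _ => mul_nonneg (mul_pos (hw x) (hBp x)).le (sq_nonneg _)
    · intro x _; exact le_of_eq (by ring)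
  have hL : ∑ x, w x * B x * (max (1 - r x) 0) ^ 2 ≤ 2 * (Z * EQ w H (inc q w H j)) := by
    rw [hE, mul_sum]
    refine sum_le_sum fun x _ => ?_
    have := mul_le_mul_of_nonneg_left (xlogx_ge' (hrp x)) (mul_pos (hw x) (hBp x)).le
    linarith
  rw [hZB] at hCS
  have hN0 : 0 ≤ EQ w H fun x => max (-inc q w H j x) 0 := by
    unfold EQ
    exact div_nonneg (sum_nonneg fun x _ => mul_nonneg (mul_pos (hw x) (hH x)).le
      (le_max_right _ _)) hZp.le
  have h5 : (Z * (EQ w H fun x => max (-inc q w H j x) 0)) ^ 2 ≤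
      Z * (2 * (Z * EQ w H (inc q w H j))) := by
    calc (Z * (EQ w H fun x => max (-inc q w H j x) 0)) ^ 2 ≤
          (∑ x, w x * B x * max (1 - r x) 0) ^ 2 := by
          apply pow_le_pow_left₀ (mul_nonneg hZp.le hN0) hN
      _ ≤ Z * ∑ x, w x * B x * (max (1 - r x) 0) ^ 2 := hCS
      _ ≤ _ := mul_le_mul_of_nonneg_left hL hZp.le
  have h6 : Z ^ 2 * (EQ w H fun x => max (-inc q w H j x) 0) ^ 2 ≤
      Z ^ 2 * (2 * EQ w H (inc q w H j)) := by nlinarith
  exact le_of_mul_le_mul_left h6 (by positivity)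

theorem EQ_inc_nonneg [Nonempty X] (hq : ∀ j x y, q j x = q j y → q (j + 1) x = q (j + 1) y)
    (hw : ∀ x, 0 < w x) (hH : ∀ x, 0 < H x) (j : ℕ) : 0 ≤ EQ w H (inc q w H j) := by
  have := neg_sq_le hq hw hH j
  nlinarith [sq_nonneg (EQ w H fun x => max (-inc q w H j x) 0)]

/-- Telescoping of the increments. -/
theorem sum_inc (n : ℕ) (x : X) : ∑ j ∈ range n, inc q w H j x =
    Real.log (avg q w 0 H x) - Real.log (avg q w n H x) := by
  unfold inc
  rw [sum_range_sub']

variable [Nonempty X] {n : ℕ} {B : ℝ}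

theorem sum_EQ_inc_le (hw : ∀ x, 0 < w x) (hH : ∀ x, 0 < H x)
    (hB : ∀ x, Real.log (avg q w 0 H x) - Real.log (avg q w n H x) ≤ B) :
    ∑ j ∈ range n, EQ w H (inc q w H j) ≤ B := by
  rw [← EQ_sum]
  calc (EQ w H fun x => ∑ j ∈ range n, inc q w H j x) ≤ EQ w H fun _ => B :=
        EQ_mono hw hH fun x => by rw [sum_inc]; exact hB x
    _ = B := EQ_const hw hH B

/-- The negative parts. -/
theorem sum_neg_le (hq : ∀ j x y, q j x = q j y → q (j + 1) x = q (j + 1) y)
    (hw : ∀ x, 0 < w x) (hH : ∀ x, 0 < H x)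
    (hB : ∀ x, Real.log (avg q w 0 H x) - Real.log (avg q w n H x) ≤ B) :
    ∑ j ∈ range n, (EQ w H fun x => max (-inc q w H j x) 0) ≤ √(2 * n * B) := by
  apply Real.le_sqrt_of_sq_le
  have h2 : (∑ j ∈ range n, (EQ w H fun x => max (-inc q w H j x) 0)) ^ 2 ≤
      (range n).card * ∑ j ∈ range n, (EQ w H fun x => max (-inc q w H j x) 0) ^ 2 :=
    sq_sum_le_card_mul_sum_sq
  have h3 : ∑ j ∈ range n, (EQ w H fun x => max (-inc q w H j x) 0) ^ 2 ≤ 2 * B := by
    calc ∑ j ∈ range n, (EQ w H fun x => max (-inc q w H j x) 0) ^ 2 ≤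
          ∑ j ∈ range n, 2 * EQ w H (inc q w H j) := sum_le_sum fun j _ => neg_sq_le hq hw hH j
      _ = 2 * ∑ j ∈ range n, EQ w H (inc q w H j) := by rw [mul_sum]
      _ ≤ 2 * B := by have := sum_EQ_inc_le (n := n) hw hH hB; linarith
  rw [card_range] at h2
  calc _ ≤ _ := h2
    _ ≤ (n : ℝ) * (2 * B) := by gcongr
    _ = 2 * n * B := by ring

/-- The positive parts. -/
theorem sum_pos_le (hq : ∀ j x y, q j x = q j y → q (j + 1) x = q (j + 1) y)
    (hw : ∀ x, 0 < w x) (hH : ∀ x, 0 < H x)
    (hB : ∀ x, Real.log (avg q w 0 H x) - Real.log (avg q w n H x) ≤ B) :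
    ∑ j ∈ range n, (EQ w H fun x => max (inc q w H j x) 0) ≤ B + √(2 * n * B) := by
  have h1 := sum_EQ_inc_le (n := n) hw hH hB
  have h2 := sum_neg_le hq hw hH hB
  have h3 : ∀ j, (EQ w H fun x => max (inc q w H j x) 0) =
      EQ w H (inc q w H j) + EQ w H fun x => max (-inc q w H j x) 0 := by
    intro j
    rw [← EQ_add]
    congr 1
    funext x
    rcases le_total (inc q w H j x) 0 with h | h
    · rw [max_eq_right h, max_eq_left (by linarith)]; ring
    · rw [max_eq_left h, max_eq_right (by linarith)]; ring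
  rw [sum_congr rfl fun j _ => h3 j, sum_add_distrib]
  linarith

/-- The total variation. -/
theorem sum_abs_le (hq : ∀ j x y, q j x = q j y → q (j + 1) x = q (j + 1) y)
    (hw : ∀ x, 0 < w x) (hH : ∀ x, 0 < H x)
    (hB : ∀ x, Real.log (avg q w 0 H x) - Real.log (avg q w n H x) ≤ B) :
    ∑ j ∈ range n, (EQ w H fun x => |inc q w H j x|) ≤ B + 2 * √(2 * n * B) := by
  have h1 := sum_EQ_inc_le (n := n) hw hH hB
  have h2 := sum_neg_le hq hw hH hB
  have h3 : ∀ j, (EQ w H fun x => |inc q w H j x|) = EQ w H (inc q w H j) +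
      ((EQ w H fun x => max (-inc q w H j x) 0) + EQ w H fun x => max (-inc q w H j x) 0) := by
    intro j
    rw [← EQ_add, ← EQ_add]
    congr 1
    funext x
    rcases le_total (inc q w H j x) 0 with h | h
    · rw [abs_of_nonpos h, max_eq_left (by linarith)]; ring
    · rw [abs_of_nonneg h, max_eq_right (by linarith)]; ring
  rw [sum_congr rfl fun j _ => h3 j, sum_add_distrib, sum_add_distrib]
  linarith

end Var

/-! ### Maximal inequality for dyadic blocks of levels -/

/-- The block number `a` of length `2 ^ s`. -/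
def blk (s a : ℕ) : Finset ℕ := Ico (a * 2 ^ s) ((a + 1) * 2 ^ s)

/-- Some block around `j`, of a scale `≤ S`, has too large an increment. -/
def BadAt (thr Δ : ℕ → ℝ) (S j : ℕ) : Prop :=
  ∃ s ≤ S, thr s < ∑ i ∈ blk s (j / 2 ^ s), Δ i

theorem mem_blk {s a j : ℕ} : j ∈ blk s a ↔ j / 2 ^ s = a := by
  have h : 0 < 2 ^ s := by positivity
  rw [blk, mem_Ico]
  constructor
  · rintro ⟨h1, h2⟩
    exact Nat.div_eq_of_lt_le h1 h2
  · rintro rfl
    exact ⟨Nat.div_mul_le_self j _, by rw [Nat.add_mul, one_mul]; exact Nat.lt_div_mul_add h⟩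

theorem card_blk (s a : ℕ) : (blk s a).card = 2 ^ s := by
  rw [blk, Nat.card_Ico, ← Nat.sub_mul, Nat.add_sub_cancel_left, one_mul]

theorem blk_succ (s a : ℕ) : blk (s + 1) a = blk s (2 * a) ∪ blk s (2 * a + 1) := by
  ext j
  rw [mem_union, mem_blk, mem_blk, mem_blk, pow_succ, ← Nat.div_div_eq_div_mul]
  omega

theorem blk_disjoint (s : ℕ) {a b : ℕ} (h : a ≠ b) : Disjoint (blk s a) (blk s b) := by
  rw [Finset.disjoint_left]
  intro j h1 h2
  rw [mem_blk] at h1 h2
  exact h (h1.symm.trans h2)

theorem maximal (thr Δ : ℕ → ℝ) {c : ℝ} (hc : 0 < c) : ∀ (S : ℕ),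
    (∀ s ≤ S, c * 2 ^ s ≤ thr s) → ∀ a : ℕ, ∀ (P : ℕ → Prop) [DecidablePred P],
    (∀ j, P j → BadAt thr Δ S j) →
    c * ((blk S a).filter P).card ≤ ∑ i ∈ blk S a, max (Δ i) 0 := by
  intro S
  induction S with
  | zero =>
    intro hthr a P _ hP
    by_cases h : P a
    · obtain ⟨s, hs, h1⟩ := hP a h
      obtain rfl : s = 0 := by omega
      have h2 := hthr 0 le_rfl
      simp only [pow_zero, Nat.div_one, mul_one] at h1 h2
      have h3 : ((blk 0 a).filter P).card ≤ 1 := by
        calc ((blk 0 a).filter P).card ≤ (blk 0 a).card := card_filter_le _ _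
          _ = 1 := by rw [card_blk, pow_zero]
      have h4 : (((blk 0 a).filter P).card : ℝ) ≤ 1 := by exact_mod_cast h3
      calc c * (((blk 0 a).filter P).card : ℝ) ≤ c * 1 := by gcongr
        _ ≤ thr 0 := by linarith
        _ ≤ ∑ i ∈ blk 0 a, Δ i := h1.le
        _ ≤ _ := sum_le_sum fun i _ => le_max_left _ _
    · have h5 : (blk 0 a).filter P = ∅ := by
        rw [filter_eq_empty_iff]
        intro j hj hPj
        rw [mem_blk, pow_zero, Nat.div_one] at hj
        exact h (hj ▸ hPj)
      rw [h5, card_empty, Nat.cast_zero, mul_zero]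
      exact sum_nonneg fun i _ => le_max_right _ _
  | succ S ih =>
    intro hthr a P _ hP
    by_cases h : thr (S + 1) < ∑ i ∈ blk (S + 1) a, Δ i
    · have h3 : ((blk (S + 1) a).filter P).card ≤ 2 ^ (S + 1) := by
        calc ((blk (S + 1) a).filter P).card ≤ (blk (S + 1) a).card := card_filter_le _ _
          _ = _ := card_blk _ _
      have h4 : (((blk (S + 1) a).filter P).card : ℝ) ≤ 2 ^ (S + 1) := by exact_mod_cast h3
      calc c * (((blk (S + 1) a).filter P).card : ℝ) ≤ c * 2 ^ (S + 1) := by gcongr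
        _ ≤ thr (S + 1) := hthr _ le_rfl
        _ ≤ ∑ i ∈ blk (S + 1) a, Δ i := h.le
        _ ≤ _ := sum_le_sum fun i _ => le_max_left _ _
    · classical
      have hthr' : ∀ s ≤ S, c * 2 ^ s ≤ thr s := fun s hs => hthr s (by omega)
      have key : ∀ b, (b = 2 * a ∨ b = 2 * a + 1) →
          c * ((blk S b).filter P).card ≤ ∑ i ∈ blk S b, max (Δ i) 0 := by
        intro b hb
        have h1 : (blk S b).filter P = (blk S b).filter fun j => P j ∧ j ∈ blk S b := by
          apply filter_congr
          intro j hj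
          simp [hj]
        rw [h1]
        apply ih hthr' b
        rintro j ⟨hj, hjb⟩
        obtain ⟨s, hs, h2⟩ := hP j hj
        rcases Nat.lt_or_ge s (S + 1) with h3 | h3
        · exact ⟨s, by omega, h2⟩
        · exfalso
          obtain rfl : s = S + 1 := by omega
          apply h
          have h5 : j ∈ blk (S + 1) a := by
            rw [blk_succ, mem_union]
            rcases hb with rfl | rfl
            · exact Or.inl hjb
            · exact Or.inr hjb
          rw [mem_blk] at h5
          rwa [h5] at h2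
      have hd : Disjoint (blk S (2 * a)) (blk S (2 * a + 1)) := blk_disjoint S (by omega)
      rw [blk_succ, filter_union, card_union_of_disjoint (disjoint_filter_filter hd),
        sum_union hd]
      push_cast
      have h1 := key (2 * a) (Or.inl rfl)
      have h2 := key (2 * a + 1) (Or.inr rfl)
      linarith

theorem maximal_range (thr Δ : ℕ → ℝ) {c : ℝ} (hc : 0 < c) (S : ℕ)
    (hthr : ∀ s ≤ S, c * 2 ^ s ≤ thr s) (P : ℕ → Prop) [DecidablePred P]
    (hP : ∀ j, P j → BadAt thr Δ S j) (N : ℕ) :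
    c * ((range (N * 2 ^ S)).filter P).card ≤ ∑ i ∈ range (N * 2 ^ S), max (Δ i) 0 := by
  induction N with
  | zero => simp
  | succ N ih =>
    have h1 : range ((N + 1) * 2 ^ S) = range (N * 2 ^ S) ∪ blk S N := by
      ext j
      rw [mem_union, mem_range, mem_range, mem_blk, Nat.div_eq_iff (by positivity)]
      have h2 : (N + 1) * 2 ^ S = N * 2 ^ S + 2 ^ S := by ring
      have h3 : 0 < 2 ^ S := by positivity
      rw [h2]
      constructor
      · intro h
        rcases Nat.lt_or_ge j (N * 2 ^ S) with h4 | h4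
        · exact Or.inl h4
        · exact Or.inr ⟨h4, by omega⟩
      · rintro (h | ⟨-, h⟩) <;> omega
    have hd : Disjoint (range (N * 2 ^ S)) (blk S N) := by
      rw [Finset.disjoint_left]
      intro j hj hj'
      rw [mem_range] at hj
      rw [blk, mem_Ico] at hj'
      omega
    rw [h1, filter_union, card_union_of_disjoint (disjoint_filter_filter hd), sum_union hd]
    push_cast
    have h2 := maximal thr Δ hc S hthr N P hP
    linarith

section BadQ

variable {X : Type*} [Fintype X] [Nonempty X] {q : ℕ → X → ℕ} {w H : X → ℝ} {n : ℕ} {B : ℝ}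

open Classical in
/-- The mass-biased measure of the leaves that are bad at level `j`, summed over the levels. -/
theorem sum_bad_le (hq : ∀ j x y, q j x = q j y → q (j + 1) x = q (j + 1) y)
    (hw : ∀ x, 0 < w x) (hH : ∀ x, 0 < H x)
    (hB : ∀ x, Real.log (avg q w 0 H x) - Real.log (avg q w n H x) ≤ B)
    {c : ℝ} (hc : 0 < c) {S N : ℕ} (hn : n = N * 2 ^ S) (thr : ℕ → ℝ)
    (hthr : ∀ s ≤ S, c * 2 ^ s ≤ thr s) :
    ∑ j ∈ range n, (EQ w H fun x => if BadAt thr (fun i => inc q w H i x) S j then 1 else 0) ≤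
      (B + √(2 * n * B)) / c := by
  rw [le_div_iff₀ hc, mul_comm]
  have h1 := sum_pos_le hq hw hH hB
  refine le_trans ?_ h1
  rw [← EQ_sum, ← EQ_sum]
  have h2 : c * (EQ w H fun x => ∑ j ∈ range n,
      if BadAt thr (fun i => inc q w H i x) S j then (1 : ℝ) else 0) =
      EQ w H fun x => c * ∑ j ∈ range n,
        if BadAt thr (fun i => inc q w H i x) S j then (1 : ℝ) else 0 := by
    unfold EQ
    rw [← mul_div_assoc, mul_sum]
    congr 1
    exact sum_congr rfl fun x _ => by ring
  rw [h2]
  refine EQ_mono hw hH fun x => ?_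
  have h3 := maximal_range thr (fun i => inc q w H i x) hc S hthr
    (fun j => BadAt thr (fun i => inc q w H i x) S j) (fun j hj => hj) N
  rw [← hn] at h3
  rw [sum_boole]
  exact h3

/-- The one-scale version: children that are much denser than their parent. -/
theorem sum_jump_le (hq : ∀ j x y, q j x = q j y → q (j + 1) x = q (j + 1) y)
    (hw : ∀ x, 0 < w x) (hH : ∀ x, 0 < H x)
    (hB : ∀ x, Real.log (avg q w 0 H x) - Real.log (avg q w n H x) ≤ B)
    {c : ℝ} (hc : 0 < c) :
    ∑ j ∈ range n, (EQ w H fun x => if c < inc q w H j x then 1 else 0) ≤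
      (B + √(2 * n * B)) / c := by
  rw [le_div_iff₀ hc, mul_comm]
  refine le_trans ?_ (sum_pos_le hq hw hH hB)
  rw [mul_sum]
  refine sum_le_sum fun j _ => ?_
  have h2 : c * (EQ w H fun x => if c < inc q w H j x then (1 : ℝ) else 0) =
      EQ w H fun x => c * if c < inc q w H j x then (1 : ℝ) else 0 := by
    unfold EQ
    rw [← mul_div_assoc, mul_sum]
    congr 1
    exact sum_congr rfl fun x _ => by ring
  rw [h2]
  refine EQ_mono hw hH fun x => ?_
  split_ifs with h
  · rw [mul_one]; exact h.le.trans (le_max_left _ _)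
  · rw [mul_zero]; exact le_max_right _ _

end BadQ

/-! ### Classes with hysteresis -/

/-- Class `m` levels below the top: unchanged as long as the (base 2) logarithm of the density
stays in `[k - 3, k]`. -/
noncomputable def cls (L : ℕ → ℝ) (n : ℕ) : ℕ → ℤ
  | 0 => ⌈L n⌉ + 1
  | m + 1 => open Classical in
      if (cls L n m : ℝ) - 3 ≤ L (n - (m + 1)) ∧ L (n - (m + 1)) ≤ cls L n m then cls L n m
      else ⌈L (n - (m + 1))⌉ + 1

theorem cls_congr {L L' : ℕ → ℝ} {n : ℕ} : ∀ m : ℕ, (∀ i, n - m ≤ i → L i = L' i) →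
    cls L n m = cls L' n m
  | 0, h => by simp only [cls, h n (by omega)]
  | m + 1, h => by
    have ih := cls_congr (L := L) (L' := L') (n := n) m fun i hi => h i (by omega)
    simp only [cls, ih, h (n - (m + 1)) le_rfl]

theorem cls_mem (L : ℕ → ℝ) (n m : ℕ) :
    (cls L n m : ℝ) - 3 ≤ L (n - m) ∧ L (n - m) ≤ cls L n m := by
  have h0 : ∀ y : ℝ, ((⌈y⌉ + 1 : ℤ) : ℝ) - 3 ≤ y ∧ y ≤ ((⌈y⌉ + 1 : ℤ) : ℝ) := by
    intro y
    have h1 := Int.le_ceil y
    have h2 := Int.ceil_lt_add_one y
    push_cast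
    constructor <;> linarith
  cases m with
  | zero => exact h0 _
  | succ m =>
    by_cases h : (cls L n m : ℝ) - 3 ≤ L (n - (m + 1)) ∧ L (n - (m + 1)) ≤ cls L n m
    · simp only [cls]
      rw [if_pos h]
      exact h
    · simp only [cls]
      rw [if_neg h]
      exact h0 _

theorem cls_var_aux (L : ℕ → ℝ) (n : ℕ) (M : ℕ) : ∃ y : ℝ, cls L n M = ⌈y⌉ + 1 ∧
    ((∑ m ∈ range M, |cls L n (m + 1) - cls L n m| : ℤ) : ℝ) + 2 * |L (n - M) - y| ≤
      2 * ∑ m ∈ range M, |L (n - (m + 1)) - L (n - m)| := by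
  induction M with
  | zero => exact ⟨L n, rfl, by simp⟩
  | succ M ih =>
    obtain ⟨y, hy, h⟩ := ih
    rw [sum_range_succ, sum_range_succ]
    have htri : |L (n - (M + 1)) - y| ≤ |L (n - (M + 1)) - L (n - M)| + |L (n - M) - y| :=
      abs_sub_le _ _ _
    by_cases hc : (cls L n M : ℝ) - 3 ≤ L (n - (M + 1)) ∧ L (n - (M + 1)) ≤ cls L n M
    · refine ⟨y, ?_, ?_⟩
      · simp only [cls]
        rw [if_pos hc, hy]
      · have h1 : cls L n (M + 1) = cls L n M := by
          simp only [cls]
          rw [if_pos hc]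
        rw [h1, sub_self, abs_zero, add_zero]
        linarith
    · have h1 : cls L n (M + 1) = ⌈L (n - (M + 1))⌉ + 1 := by
        simp only [cls]
        rw [if_neg hc]
      refine ⟨L (n - (M + 1)), h1, ?_⟩
      rw [sub_self, abs_zero, mul_zero, add_zero]
      set z := L (n - (M + 1)) with hz
      have hy1 := Int.le_ceil y
      have hy2 := Int.ceil_lt_add_one y
      have hz1 := Int.le_ceil z
      have hz2 := Int.ceil_lt_add_one z
      have hfar : 1 ≤ |z - y| := by
        rw [hy] at hc
        push_cast at hc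
        rw [not_and_or, not_le, not_le] at hc
        rcases hc with hc | hc
        · rw [abs_of_nonpos (by linarith)]; linarith
        · rw [abs_of_nonneg (by linarith)]; linarith
      have hstep : ((|cls L n (M + 1) - cls L n M| : ℤ) : ℝ) ≤ |z - y| + 1 := by
        rw [h1, hy]
        push_cast
        rw [show (⌈z⌉ : ℝ) + 1 - (⌈y⌉ + 1) = ⌈z⌉ - ⌈y⌉ by ring, abs_le]
        have h3 := le_abs_self (z - y)
        have h4 := neg_abs_le (z - y)
        constructor <;> linarith
      push_cast at h hstep ⊢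
      linarith

/-- The total variation of the classes is at most twice that of the logarithmic density. -/
theorem cls_var (L : ℕ → ℝ) (n M : ℕ) :
    ((∑ m ∈ range M, |cls L n (m + 1) - cls L n m| : ℤ) : ℝ) ≤
      2 * ∑ m ∈ range M, |L (n - (m + 1)) - L (n - m)| := by
  obtain ⟨y, -, h⟩ := cls_var_aux L n M
  have := abs_nonneg (L (n - M) - y)
  linarith

section ClsQ

variable {X : Type*} [Fintype X] [Nonempty X] {q : ℕ → X → ℕ} {w H : X → ℝ} {n : ℕ} {B : ℝ}

/-- The base 2 logarithm of the density of the level-`j` node above `x`. -/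
noncomputable def lg (q : ℕ → X → ℕ) (w H : X → ℝ) (x : X) (j : ℕ) : ℝ :=
  Real.log (avg q w j H x) / Real.log 2

omit [Nonempty X] in
/-- The class of the node of `x` at level `n - m` depends on this node only. -/
theorem cls_lg_congr (hq : ∀ j x y, q j x = q j y → q (j + 1) x = q (j + 1) y) {m : ℕ} {x y : X}
    (h : q (n - m) x = q (n - m) y) : cls (lg q w H x) n m = cls (lg q w H y) n m := by
  apply cls_congr
  intro i hi
  unfold lg
  rw [avg_congr H (nested_le hq hi h)]

/-- Expected total variation of the classes along a mass-biased lineage. -/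
theorem sum_cls_le (hq : ∀ j x y, q j x = q j y → q (j + 1) x = q (j + 1) y)
    (hw : ∀ x, 0 < w x) (hH : ∀ x, 0 < H x)
    (hB : ∀ x, Real.log (avg q w 0 H x) - Real.log (avg q w n H x) ≤ B) :
    ∑ m ∈ range n, (EQ w H fun x =>
      ((|cls (lg q w H x) n (m + 1) - cls (lg q w H x) n m| : ℤ) : ℝ)) ≤
      2 / Real.log 2 * (B + 2 * √(2 * n * B)) := by
  have hl2 : 0 < Real.log 2 := Real.log_pos (by norm_num)
  rw [← EQ_sum]
  have h1 : (EQ w H fun x => ∑ m ∈ range n,
      ((|cls (lg q w H x) n (m + 1) - cls (lg q w H x) n m| : ℤ) : ℝ)) ≤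
      EQ w H fun x => 2 / Real.log 2 * ∑ j ∈ range n, |inc q w H j x| := by
    refine EQ_mono hw hH fun x => ?_
    have h2 := cls_var (lg q w H x) n n
    push_cast at h2 ⊢
    refine h2.trans (le_of_eq ?_)
    rw [← sum_range_reflect (fun j => |inc q w H j x|) n, div_mul_eq_mul_div, mul_div_assoc,
      sum_div]
    congr 1
    refine sum_congr rfl fun m hm => ?_
    rw [mem_range] at hm
    have h3 : n - m = n - 1 - m + 1 := by omega
    have h4 : n - (m + 1) = n - 1 - m := by omega
    rw [h3, h4]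
    unfold lg inc
    rw [← sub_div, abs_div, abs_of_pos hl2]
  refine h1.trans ?_
  have h5 : (EQ w H fun x => 2 / Real.log 2 * ∑ j ∈ range n, |inc q w H j x|) =
      2 / Real.log 2 * EQ w H fun x => ∑ j ∈ range n, |inc q w H j x| := by
    unfold EQ
    rw [← mul_div_assoc, mul_sum]
    congr 1
    exact sum_congr rfl fun x _ => by ring
  rw [h5, EQ_sum]
  exact mul_le_mul_of_nonneg_left (sum_abs_le hq hw hH hB) (by positivity)

end ClsQ

end Vale.Agent.P315.H869
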