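import Vale.Agent.P315.H123.BoxArea

/-! Area of the read sets when the regions carry a density class `κ` (boxes of width `2 ^ κ`) and a
change of class costs `D` index units per step: pathwise in the jitters, uniform over the boxes,
adaptive lanes of several heights, no constraint on the classes along a lane. -/

set_option autoImplicit false

namespace Vale.Agent.P315.H869

open Finset
open Vale.Agent.P315.H123

/-! ### Geometric sums -/

theorem geo_le {r : ℝ} (h0 : 0 ≤ r) (h1 : r < 1) (m : ℕ) :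
    ∑ i ∈ range m, r ^ i ≤ 1 / (1 - r) := by
  rw [le_div_iff₀ (by linarith), geom_sum_mul_neg]
  have := pow_nonneg h0 m
  linarith

theorem dist_lt {κ i : ℕ} (h : i < κ) : Nat.dist κ i = κ - i := by
  rw [Nat.dist_eq_sub_of_le_right h.le]

theorem sum_le_split {f : ℕ → ℝ} (hf : ∀ i, 0 ≤ f i) (κ K : ℕ) :
    ∑ i ∈ range K, f i ≤ ∑ i ∈ range κ, f (κ - 1 - i) + ∑ i ∈ range K, f (κ + i) := by
  rw [Finset.sum_range_reflect, ← Finset.sum_range_add]
  exact Finset.sum_le_sum_of_subset_of_nonneg (Finset.range_subset_range.2 (by omega))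
    fun i _ _ => hf i

theorem geo1 (κ K : ℕ) : ∑ i ∈ range K, (1 / 4 : ℝ) ^ Nat.dist κ i ≤ 5 / 3 := by
  refine (sum_le_split (f := fun i => (1 / 4 : ℝ) ^ Nat.dist κ i) (fun i => by positivity)
    κ K).trans ?_
  have h1 : ∀ i ∈ range κ, (1 / 4 : ℝ) ^ Nat.dist κ (κ - 1 - i) = 1 / 4 * (1 / 4 : ℝ) ^ i := by
    intro i hi
    have := Finset.mem_range.1 hi
    rw [dist_lt (by omega), show κ - (κ - 1 - i) = i + 1 by omega, pow_succ]
    ring
  have h2 : ∀ i ∈ range K, (1 / 4 : ℝ) ^ Nat.dist κ (κ + i) = (1 / 4 : ℝ) ^ i := by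
    intro i _
    rw [Nat.dist_eq_sub_of_le (by omega), Nat.add_sub_cancel_left]
  rw [Finset.sum_congr rfl h1, Finset.sum_congr rfl h2, ← Finset.mul_sum]
  have h3 := geo_le (r := 1 / 4) (by norm_num) (by norm_num) κ
  have h4 := geo_le (r := 1 / 4) (by norm_num) (by norm_num) K
  norm_num at h3 h4 ⊢
  linarith

theorem geo2 (κ K : ℕ) :
    ∑ i ∈ range K, (2 : ℝ) ^ i * (1 / 4 : ℝ) ^ Nat.dist κ i ≤ 15 / 7 * 2 ^ κ := by
  refine (sum_le_split (f := fun i => (2 : ℝ) ^ i * (1 / 4 : ℝ) ^ Nat.dist κ i)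
    (fun i => by positivity) κ K).trans ?_
  have h1 : ∀ i ∈ range κ, (2 : ℝ) ^ (κ - 1 - i) * (1 / 4 : ℝ) ^ Nat.dist κ (κ - 1 - i) =
      2 ^ κ * (1 / 8) * (1 / 8 : ℝ) ^ i := by
    intro i hi
    have := Finset.mem_range.1 hi
    rw [dist_lt (by omega), show κ - (κ - 1 - i) = i + 1 by omega]
    have h : (2 : ℝ) ^ κ = 2 ^ (κ - 1 - i) * (2 ^ i * 2) := by
      rw [← pow_succ, ← pow_add]
      congr 1
      omega
    have h' : (1 / 8 : ℝ) ^ i * 2 ^ i = (1 / 4) ^ i := by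
      rw [← mul_pow]; norm_num
    rw [h, pow_succ, ← h']
    ring
  have h2 : ∀ i ∈ range K, (2 : ℝ) ^ (κ + i) * (1 / 4 : ℝ) ^ Nat.dist κ (κ + i) =
      2 ^ κ * (1 / 2 : ℝ) ^ i := by
    intro i _
    rw [Nat.dist_eq_sub_of_le (by omega), Nat.add_sub_cancel_left, pow_add, mul_assoc, ← mul_pow]
    norm_num
  rw [Finset.sum_congr rfl h1, Finset.sum_congr rfl h2, ← Finset.mul_sum, ← Finset.mul_sum]
  have h3 := geo_le (r := 1 / 8) (by norm_num) (by norm_num) κ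
  have h4 := geo_le (r := 1 / 2) (by norm_num) (by norm_num) K
  have h5 : (0 : ℝ) < 2 ^ κ := by positivity
  norm_num at h3 h4
  nlinarith

theorem geo3 (κ K : ℕ) :
    ∑ i ∈ (range K).filter (κ < ·), (2 : ℝ) ^ i * (1 / 4 : ℝ) ^ Nat.dist κ i ≤ 2 ^ κ := by
  have h0 : ∑ i ∈ (range K).filter (κ < ·), (2 : ℝ) ^ i * (1 / 4 : ℝ) ^ Nat.dist κ i ≤
      ∑ i ∈ (range K).map (addLeftEmbedding (κ + 1)), (2 : ℝ) ^ i * (1 / 4 : ℝ) ^ Nat.dist κ i := by
    apply Finset.sum_le_sum_of_subset_of_nonneg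
    · intro i hi
      rw [Finset.mem_filter, Finset.mem_range] at hi
      rw [Finset.mem_map]
      exact ⟨i - (κ + 1), Finset.mem_range.2 (by omega), by
        simp only [addLeftEmbedding_apply]; omega⟩
    · intro i _ _; positivity
  refine h0.trans ?_
  rw [Finset.sum_map]
  have h2 : ∀ i ∈ range K, (2 : ℝ) ^ (addLeftEmbedding (κ + 1) i) *
      (1 / 4 : ℝ) ^ Nat.dist κ (addLeftEmbedding (κ + 1) i) = 2 ^ κ * (1 / 2) * (1 / 2 : ℝ) ^ i := by
    intro i _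
    simp only [addLeftEmbedding_apply]
    rw [Nat.dist_eq_sub_of_le (by omega), show κ + 1 + i - κ = i + 1 by omega,
      show κ + 1 + i = κ + (i + 1) by omega, pow_add, mul_assoc, ← mul_pow, pow_succ]
    norm_num
    ring
  rw [Finset.sum_congr rfl h2, ← Finset.mul_sum]
  have h4 := geo_le (r := 1 / 2) (by norm_num) (by norm_num) K
  have h5 : (0 : ℝ) < 2 ^ κ := by positivity
  norm_num at h4
  nlinarith

/-- The rounds up to `b`. -/
theorem rounds_le {lam : ℝ} (hlam : 0 < lam) (a b : ℤ) :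
    ∑ r ∈ Icc a b, Real.exp (lam * (r : ℝ)) ≤ Real.exp (lam * b) / (1 - Real.exp (-lam)) := by
  set x := Real.exp (-lam) with hx
  have hx0 : 0 < x := Real.exp_pos _
  have hx1 : x < 1 := Real.exp_lt_one_iff.2 (by linarith)
  have h1 : ∀ r ∈ Icc a b, Real.exp (lam * (r : ℝ)) = Real.exp (lam * b) * x ^ (b - r).toNat := by
    intro r hr
    have hr' := (Finset.mem_Icc.1 hr).2
    rw [hx, ← Real.exp_nat_mul, ← Real.exp_add]
    congr 1
    have : (((b - r).toNat : ℕ) : ℝ) = (b : ℝ) - r := by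
      have h : (((b - r).toNat : ℕ) : ℤ) = b - r := Int.toNat_of_nonneg (by linarith)
      exact_mod_cast h
    rw [this]; ring
  rw [Finset.sum_congr rfl h1, ← Finset.mul_sum, div_eq_mul_one_div]
  refine mul_le_mul_of_nonneg_left ?_ (Real.exp_pos _).le
  refine le_trans ?_ (geo_le hx0.le hx1 ((b - a).toNat + 1))
  rw [← Finset.sum_image (f := fun i => x ^ i) (s := Icc a b) (g := fun r => (b - r).toNat)]
  · apply Finset.sum_le_sum_of_subset_of_nonneg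
    · intro i hi
      rw [Finset.mem_image] at hi
      obtain ⟨r, hr, rfl⟩ := hi
      have := Finset.mem_Icc.1 hr
      rw [Finset.mem_range]
      omega
    · intro i _ _; positivity
  · intro r hr r' hr' h
    have h1 := (Finset.mem_Icc.1 (Finset.mem_coe.1 hr)).2
    have h2 := (Finset.mem_Icc.1 (Finset.mem_coe.1 hr')).2
    dsimp only at h
    omega

/-! ### Boxes -/

/-- The box `(κ, k)`, the positions `[k 2 ^ κ, (k + 1) 2 ^ κ)`, meets `[A, B)`. -/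
def Meets (κ : ℕ) (k A B : ℤ) : Prop := k * 2 ^ κ < B ∧ A < (k + 1) * 2 ^ κ

/-- The boxes of class `κ` which meet `[A, B)`. -/
noncomputable def bx (κ : ℕ) (A B : ℤ) : Finset ℤ := Icc (A / 2 ^ κ) ((B - 1) / 2 ^ κ)

theorem mem_bx {κ : ℕ} {k A B : ℤ} : k ∈ bx κ A B ↔ Meets κ k A B := by
  have h : (0 : ℤ) < 2 ^ κ := by positivity
  unfold bx Meets
  rw [Finset.mem_Icc, Int.le_ediv_iff_mul_le h, ← Int.lt_add_one_iff (a := A / 2 ^ κ),
    Int.ediv_lt_iff_lt_mul h]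
  constructor
  · rintro ⟨h1, h2⟩
    exact ⟨by omega, h1⟩
  · rintro ⟨h1, h2⟩
    exact ⟨h2, by omega⟩

theorem card_bx {κ : ℕ} {A B : ℤ} (h : A ≤ B) :
    ((bx κ A B).card : ℝ) * 2 ^ κ ≤ ((B - A : ℤ) : ℝ) + 2 * 2 ^ κ := by
  have hp : (0 : ℤ) < 2 ^ κ := by positivity
  have hp' : (0 : ℝ) < 2 ^ κ := by positivity
  unfold bx
  rw [Int.card_Icc]
  have h1 : (B - 1) / 2 ^ κ * 2 ^ κ ≤ B - 1 := Int.ediv_mul_le _ hp.ne'
  have h2 : A < (A / 2 ^ κ + 1) * 2 ^ κ := by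
    rw [← Int.ediv_lt_iff_lt_mul hp]; omega
  rcases le_total 0 ((B - 1) / 2 ^ κ + 1 - A / 2 ^ κ) with h3 | h3
  · have h4 : ((((B - 1) / 2 ^ κ + 1 - A / 2 ^ κ).toNat : ℕ) : ℤ) =
        (B - 1) / 2 ^ κ + 1 - A / 2 ^ κ := Int.toNat_of_nonneg h3
    have h5 : ((((B - 1) / 2 ^ κ + 1 - A / 2 ^ κ).toNat : ℕ) : ℤ) * 2 ^ κ ≤ (B - A) + 2 * 2 ^ κ := by
      rw [h4]; nlinarith
    exact_mod_cast h5
  · rw [Int.toNat_of_nonpos h3]
    have : (0 : ℝ) ≤ ((B - A : ℤ) : ℝ) := by exact_mod_cast (by omega : (0 : ℤ) ≤ B - A)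
    simp only [Nat.cast_zero, zero_mul]
    positivity

/-! ### Covers -/

section Cover

variable {γ : Type*} {wt : γ → ℝ}

theorem sum_cover (hwt : ∀ c, 0 ≤ wt c) {ι : Type*} (I : Finset ι) (p : ι → γ → Prop)
    (bd : ι → ℝ) (Fs : Finset γ) (h : ∀ c ∈ Fs, ∃ i ∈ I, p i c)
    (hb : ∀ i ∈ I, ∀ Gs : Finset γ, (∀ c ∈ Gs, p i c) → ∑ c ∈ Gs, wt c ≤ bd i) :
    ∑ c ∈ Fs, wt c ≤ ∑ i ∈ I, bd i := by
  classical
  have h1 : ∑ i ∈ I, ∑ c ∈ Fs.filter (p i), wt c =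
      ∑ c ∈ Fs, ∑ i ∈ I, if p i c then wt c else 0 := by
    rw [Finset.sum_comm]
    exact Finset.sum_congr rfl fun i _ => Finset.sum_filter _ _
  refine le_trans (b := ∑ i ∈ I, ∑ c ∈ Fs.filter (p i), wt c) ?_
    (Finset.sum_le_sum fun i hi => hb i hi _ fun c hc => (Finset.mem_filter.1 hc).2)
  rw [h1]
  refine Finset.sum_le_sum fun c hc => ?_
  obtain ⟨i, hi, hp⟩ := h c hc
  calc wt c = if p i c then wt c else 0 := (if_pos hp).symm
    _ ≤ _ := Finset.single_le_sum (f := fun i => if p i c then wt c else 0)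
        (fun i _ => by split_ifs; exacts [hwt c, le_rfl]) hi

theorem sum_or (hwt : ∀ c, 0 ≤ wt c) (p q : γ → Prop) {x y : ℝ} (Fs : Finset γ)
    (h : ∀ c ∈ Fs, p c ∨ q c)
    (hx : ∀ Gs : Finset γ, (∀ c ∈ Gs, p c) → ∑ c ∈ Gs, wt c ≤ x)
    (hy : ∀ Gs : Finset γ, (∀ c ∈ Gs, q c) → ∑ c ∈ Gs, wt c ≤ y) :
    ∑ c ∈ Fs, wt c ≤ x + y := by
  classical
  refine le_trans (b := ∑ c ∈ Fs.filter p, wt c + ∑ c ∈ Fs.filter q, wt c) ?_
    (add_le_add (hx _ fun c hc => (Finset.mem_filter.1 hc).2)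
      (hy _ fun c hc => (Finset.mem_filter.1 hc).2))
  rw [Finset.sum_filter, Finset.sum_filter, ← Finset.sum_add_distrib]
  refine Finset.sum_le_sum fun c hc => ?_
  have := hwt c
  rcases h c hc with h | h
  · rw [if_pos h]; split_ifs <;> linarith
  · rw [if_pos h]; split_ifs <;> linarith

end Cover

/-! ### The area theorem -/

/-- `c` lies in the read set of some box (of any class `κ' < K`) which meets `[A, B)`, at the index
`b` lowered by `D` for every step between `κ` and `κ'`. -/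
def InF {γ : Type*} (S : ℕ → ℕ → ℕ → ℤ → ℤ → Finset γ) (K D j t κ : ℕ) (A B b : ℤ) (c : γ) :
    Prop :=
  ∃ κ' < K, ∃ k : ℤ, Meets κ' k A B ∧ c ∈ S j t κ' k (b - D * Nat.dist κ κ')

/-- The common factor of the bounds. -/
noncomputable def Gf (M : ℕ) (C lam : ℝ) (ξ : ℕ → ℕ → ℕ) (j t : ℕ) (b : ℤ) : ℝ :=
  2 * (M : ℝ) ^ j * C ^ j * Real.exp (lam * b) * Wt M ξ lam j t

theorem Gf_nonneg {M : ℕ} {C lam : ℝ} (hC : 0 ≤ C) (ξ : ℕ → ℕ → ℕ) (j t : ℕ) (b : ℤ) :
    0 ≤ Gf M C lam ξ j t b := by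
  have := Wt_nonneg M ξ lam j t
  unfold Gf
  positivity

theorem Gf_base {M : ℕ} (hM : 0 < M) {C lam : ℝ} (ξ : ℕ → ℕ → ℕ) (j t : ℕ) (b : ℤ) :
    (M : ℝ) * C * ∑ i ∈ range M, Gf M C lam ξ j (M * t + i) (b - ξ j (M * t + i)) =
      Gf M C lam ξ (j + 1) t b := by
  unfold Gf
  have h := Wt_split hM ξ lam j 1 t
  rw [h, pow_one, Finset.mul_sum, Finset.mul_sum]
  refine Finset.sum_congr rfl fun i _ => ?_
  rw [Xi_one]
  have h5 : Real.exp (lam * ((b - ξ j (M * t + i) : ℤ) : ℝ)) =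
      Real.exp (lam * b) * Real.exp (- lam * (ξ j (M * t + i) : ℝ)) := by
    rw [← Real.exp_add]; congr 1; push_cast; ring
  rw [h5]
  ring

theorem Gf_lane {M : ℕ} (hM : 0 < M) {C lam : ℝ} (hC : 1 ≤ C) (ξ : ℕ → ℕ → ℕ) {j h : ℕ}
    (hh1 : 1 ≤ h) (hh : h ≤ j + 1) (t : ℕ) (b : ℤ) :
    (M : ℝ) ^ h * C * ∑ u ∈ range (M ^ h), Gf M C lam ξ (j + 1 - h) (M ^ h * t + u)
      (b - Xi M ξ h (j + 1 - h) (M ^ h * t + u) + h) ≤
      Real.exp (lam * h) * Gf M C lam ξ (j + 1) t b := by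
  unfold Gf
  have hs := Wt_split hM ξ lam (j + 1 - h) h t
  rw [Nat.sub_add_cancel hh] at hs
  rw [hs, Finset.mul_sum, Finset.mul_sum, Finset.mul_sum]
  refine Finset.sum_le_sum fun u _ => ?_
  have h5 : Real.exp (lam * ((b - Xi M ξ h (j + 1 - h) (M ^ h * t + u) + h : ℤ) : ℝ)) =
      Real.exp (lam * h) * Real.exp (lam * b) *
        Real.exp (- lam * (Xi M ξ h (j + 1 - h) (M ^ h * t + u) : ℝ)) := by
    rw [← Real.exp_add, ← Real.exp_add]; congr 1; push_cast; ring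
  rw [h5]
  have h6 : (M : ℝ) ^ (j + 1) = M ^ h * M ^ (j + 1 - h) := by
    rw [← pow_add]; congr 1; omega
  have h7 : C * C ^ (j + 1 - h) ≤ C ^ (j + 1) := by
    rw [← pow_succ']
    exact pow_le_pow_right₀ hC (by omega)
  have h8 : 0 ≤ 2 * (M : ℝ) ^ (j + 1) * (Real.exp (lam * h) * Real.exp (lam * b) *
        Real.exp (- lam * (Xi M ξ h (j + 1 - h) (M ^ h * t + u) : ℝ))) *
          Wt M ξ lam (j + 1 - h) (M ^ h * t + u) := by
    have := Wt_nonneg M ξ lam (j + 1 - h) (M ^ h * t + u)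
    positivity
  have h9 := mul_le_mul_of_nonneg_left h7 h8
  rw [h6] at h9 ⊢
  linarith

theorem exp_pen {lam : ℝ} {D : ℕ} (hD : Real.exp (-lam * D) ≤ 1 / 4) (d : ℕ) :
    Real.exp (-lam * (D * d : ℕ)) ≤ (1 / 4 : ℝ) ^ d := by
  have h : Real.exp (-lam * (D * d : ℕ)) = Real.exp (-lam * D) ^ d := by
    rw [← Real.exp_nat_mul]; congr 1; push_cast; ring
  rw [h]
  exact pow_le_pow_left₀ (Real.exp_pos _).le hD d

theorem Gf_pen {M : ℕ} {C lam : ℝ} (hC : 0 ≤ C) {D : ℕ} (hD : Real.exp (-lam * D) ≤ 1 / 4)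
    (ξ : ℕ → ℕ → ℕ) (j t : ℕ) (b : ℤ) (d : ℕ) :
    Gf M C lam ξ j t (b - D * d) ≤ (1 / 4 : ℝ) ^ d * Gf M C lam ξ j t b := by
  unfold Gf
  have h1 : Real.exp (lam * ((b - D * d : ℤ) : ℝ)) =
      Real.exp (lam * b) * Real.exp (-lam * (D * d : ℕ)) := by
    rw [← Real.exp_add]; congr 1; push_cast; ring
  rw [h1]
  have h2 := exp_pen hD d
  have h3 : 0 ≤ 2 * (M : ℝ) ^ j * C ^ j * Real.exp (lam * b) * Wt M ξ lam j t := by
    have := Wt_nonneg M ξ lam j t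
    positivity
  have h4 := mul_le_mul_of_nonneg_left h2 h3
  linarith

theorem two_pow_pen (κ κ' : ℕ) : (2 : ℝ) ^ κ * (1 / 4 : ℝ) ^ Nat.dist κ' κ ≤ 2 ^ κ' := by
  rcases le_total κ κ' with h | h
  · have h1 : (1 / 4 : ℝ) ^ Nat.dist κ' κ ≤ 1 := pow_le_one₀ (by norm_num) (by norm_num)
    have h2 : (2 : ℝ) ^ κ ≤ 2 ^ κ' := pow_le_pow_right₀ (by norm_num) h
    have h3 : (0 : ℝ) < 2 ^ κ := by positivity
    nlinarith
  · rw [Nat.dist_eq_sub_of_le h]
    obtain ⟨d, rfl⟩ : ∃ d, κ = κ' + d := ⟨κ - κ', by omega⟩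
    rw [Nat.add_sub_cancel_left, pow_add, mul_assoc, ← mul_pow]
    have h1 : ((2 : ℝ) * (1 / 4)) ^ d ≤ 1 := pow_le_one₀ (by norm_num) (by norm_num)
    have h3 : (0 : ℝ) < 2 ^ κ' := by positivity
    nlinarith

section Main

variable {γ : Type*} {M K D P c0 : ℕ} {lam C : ℝ} {ξ : ℕ → ℕ → ℕ}
  {S : ℕ → ℕ → ℕ → ℤ → ℤ → Finset γ} {wt : γ → ℝ} {sc : ℕ → Finset ℕ} {Lam : ℕ → ℕ} {H : ℕ}

/-- Leaves. -/
theorem class_area_zero (hlam : 0 < lam) (hD : Real.exp (-lam * D) ≤ 1 / 4)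
    (hwt : ∀ c, 0 ≤ wt c) (h0 : ∀ t κ k b, κ < K → ∑ c ∈ S 0 t κ k b, wt c ≤ 2 ^ κ)
    (h0' : ∀ t κ k b, b < 0 → S 0 t κ k b = ∅) (hc0 : 3 ≤ c0)
    (t κ : ℕ) (A B b : ℤ) (hAB : A ≤ B) (Fs : Finset γ)
    (hF : ∀ c ∈ Fs, InF S K D 0 t κ A B b c) :
    ∑ c ∈ Fs, wt c ≤ (((B - A : ℤ) : ℝ) + c0 * 2 ^ κ) * Gf M C lam ξ 0 t b := by
  have hW : Wt M ξ lam 0 t = 1 := by simp [Wt, Xi_zero]
  have hL : (0 : ℝ) ≤ ((B - A : ℤ) : ℝ) := by exact_mod_cast (by omega : (0 : ℤ) ≤ B - A)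
  -- cover by the classes
  have h3 := sum_cover hwt (range K)
    (fun κ' c => ∃ k : ℤ, Meets κ' k A B ∧ c ∈ S 0 t κ' k (b - D * Nat.dist κ κ'))
    (fun κ' => Real.exp (lam * b) *
      ((((B - A : ℤ) : ℝ) + 2 * 2 ^ κ') * (1 / 4 : ℝ) ^ Nat.dist κ κ')) Fs
    (fun c hc => by
      obtain ⟨κ', hκ', hk⟩ := hF c hc
      exact ⟨κ', Finset.mem_range.2 hκ', hk⟩) (by
    intro κ' hκ' Gs hGs
    rcases lt_or_ge (b - D * Nat.dist κ κ' : ℤ) 0 with hb | hb
    · rw [Finset.sum_eq_zero]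
      · positivity
      · intro c hc
        obtain ⟨k, -, hk⟩ := hGs c hc
        rw [h0' t κ' k _ hb] at hk
        exact absurd hk (Finset.notMem_empty _)
    · have h5 := sum_cover hwt (bx κ' A B) (fun k c => c ∈ S 0 t κ' k (b - D * Nat.dist κ κ'))
        (fun _ => 2 ^ κ') Gs
        (fun c hc => by
          obtain ⟨k, hk1, hk2⟩ := hGs c hc
          exact ⟨k, mem_bx.2 hk1, hk2⟩) (by
        intro k _ Hs hHs
        refine le_trans ?_ (h0 t κ' k (b - D * Nat.dist κ κ') (Finset.mem_range.1 hκ'))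
        exact Finset.sum_le_sum_of_subset_of_nonneg (fun c hc => hHs c hc) fun c _ _ => hwt c)
      rw [Finset.sum_const, nsmul_eq_mul] at h5
      have h6 := h5.trans (card_bx (κ := κ') hAB)
      have h7 : 1 ≤ Real.exp (lam * b) * (1 / 4 : ℝ) ^ Nat.dist κ κ' := by
        have h8 := exp_pen hD (Nat.dist κ κ')
        have h9 : 1 ≤ Real.exp (lam * b) * Real.exp (-lam * (D * Nat.dist κ κ' : ℕ)) := by
          rw [← Real.exp_add]
          apply Real.one_le_exp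
          have h10 : (0 : ℝ) ≤ ((b - D * Nat.dist κ κ' : ℤ) : ℝ) := by exact_mod_cast hb
          have h11 : lam * (b : ℝ) + -lam * ((D * Nat.dist κ κ' : ℕ) : ℝ) =
              lam * ((b - D * Nat.dist κ κ' : ℤ) : ℝ) := by push_cast; ring
          rw [h11]
          positivity
        exact h9.trans (mul_le_mul_of_nonneg_left h8 (Real.exp_pos _).le)
      have h8 : 0 ≤ ((B - A : ℤ) : ℝ) + 2 * 2 ^ κ' := by positivity
      nlinarith)
  rw [← Finset.mul_sum] at h3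
  have h4 : ∑ κ' ∈ range K, (((B - A : ℤ) : ℝ) + 2 * 2 ^ κ') * (1 / 4 : ℝ) ^ Nat.dist κ κ' =
      ((B - A : ℤ) : ℝ) * ∑ κ' ∈ range K, (1 / 4 : ℝ) ^ Nat.dist κ κ' +
        2 * ∑ κ' ∈ range K, (2 : ℝ) ^ κ' * (1 / 4 : ℝ) ^ Nat.dist κ κ' := by
    rw [Finset.mul_sum, Finset.mul_sum, ← Finset.sum_add_distrib]
    exact Finset.sum_congr rfl fun i _ => by ring
  have h5 := geo1 κ K
  have h6 := geo2 κ K
  rw [h4] at h3
  refine h3.trans ?_
  unfold Gf
  rw [hW]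
  have h7 : (3 : ℝ) ≤ c0 := by exact_mod_cast hc0
  have h8 : (0 : ℝ) < 2 ^ κ := by positivity
  have h9 : ((B - A : ℤ) : ℝ) * ∑ κ' ∈ range K, (1 / 4 : ℝ) ^ Nat.dist κ κ' +
        2 * ∑ κ' ∈ range K, (2 : ℝ) ^ κ' * (1 / 4 : ℝ) ^ Nat.dist κ κ' ≤
        2 * (((B - A : ℤ) : ℝ) + c0 * 2 ^ κ) := by nlinarith
  have h10 := mul_le_mul_of_nonneg_left h9 (Real.exp_pos (lam * b)).le
  simp only [pow_zero, mul_one]
  linarith

/-- Geometry of the baseline: a child box of a box `(κ', k')` that meets `[A, B)` is seen from the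
class `κ` in the interval enlarged by `P + 1` boxes of class `κ`, or from the wider class `κ'` in
one of two side intervals. -/
theorem base_cases (hM : 0 < M)
    (hmono : ∀ j t κ k (b b' : ℤ), b ≤ b' → S j t κ k b ⊆ S j t κ k b')
    {j t' κ κ' κ'' : ℕ} {A B b k' k'' : ℤ} {c : γ} (x : ℤ) (hκ' : κ' < K) (hκ'' : κ'' < K)
    (h1 : Meets κ' k' A B)
    (h2 : Meets κ'' k'' (M * ((k' - P) * 2 ^ κ')) (M * ((k' + 1 + P) * 2 ^ κ')))
    (h3 : c ∈ S j t' κ'' k'' (b - D * Nat.dist κ κ' - x - D * Nat.dist κ' κ'')) :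
    InF S K D j t' κ (M * (A - (P + 1) * 2 ^ κ)) (M * (B + (P + 1) * 2 ^ κ)) (b - x) c ∨
    ∃ e ∈ (range K).filter (κ < ·),
      (InF S K D j t' e (M * (A - (P + 1) * 2 ^ e)) (M * (A - (P + 1) * 2 ^ κ))
        (b - x - D * Nat.dist κ e) c ∨
      InF S K D j t' e (M * (B + (P + 1) * 2 ^ κ)) (M * (B + (P + 1) * 2 ^ e))
        (b - x - D * Nat.dist κ e) c) := by
  obtain ⟨h1a, h1b⟩ := h1
  obtain ⟨h2a, h2b⟩ := h2
  have hM' : (0 : ℤ) < M := by exact_mod_cast hM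
  have hX : (0 : ℤ) < 2 ^ κ := by positivity
  have hX' : (0 : ℤ) < 2 ^ κ' := by positivity
  have hX'' : (0 : ℤ) < 2 ^ κ'' := by positivity
  have hP : (0 : ℤ) ≤ P := Int.natCast_nonneg P
  -- the children lie in the interval enlarged by `P + 1` boxes of class `κ'`
  have hR : k'' * 2 ^ κ'' < M * (B + (P + 1) * 2 ^ κ') := by
    refine lt_of_lt_of_le h2a (mul_le_mul_of_nonneg_left ?_ hM'.le)
    nlinarith
  have hL : (M : ℤ) * (A - (P + 1) * 2 ^ κ') < (k'' + 1) * 2 ^ κ'' := by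
    refine lt_of_le_of_lt (mul_le_mul_of_nonneg_left ?_ hM'.le) h2b
    nlinarith
  have htri : (Nat.dist κ κ'' : ℤ) ≤ Nat.dist κ κ' + Nat.dist κ' κ'' := by
    exact_mod_cast Nat.dist.triangle_inequality κ κ' κ''
  have hidx : b - D * Nat.dist κ κ' - x - D * Nat.dist κ' κ'' ≤ b - x - D * Nat.dist κ κ'' := by
    have hDn : (0 : ℤ) ≤ D := Int.natCast_nonneg D
    nlinarith
  have hmain : Meets κ'' k'' (M * (A - (P + 1) * 2 ^ κ)) (M * (B + (P + 1) * 2 ^ κ)) →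
      InF S K D j t' κ (M * (A - (P + 1) * 2 ^ κ)) (M * (B + (P + 1) * 2 ^ κ)) (b - x) c :=
    fun h => ⟨κ'', hκ'', k'', h, hmono _ _ _ _ _ _ hidx h3⟩
  by_cases hm : Meets κ'' k'' (M * (A - (P + 1) * 2 ^ κ)) (M * (B + (P + 1) * 2 ^ κ))
  · exact Or.inl (hmain hm)
  rcases Nat.lt_or_ge κ κ' with hκ | hκ
  · right
    refine ⟨κ', Finset.mem_filter.2 ⟨Finset.mem_range.2 hκ', hκ⟩, ?_⟩
    unfold Meets at hm
    rw [not_and_or, not_lt, not_lt] at hm
    have h3' : c ∈ S j t' κ'' k'' (b - x - D * Nat.dist κ κ' - D * Nat.dist κ' κ'') := by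
      rwa [show b - x - D * Nat.dist κ κ' - D * Nat.dist κ' κ'' =
        b - D * Nat.dist κ κ' - x - D * Nat.dist κ' κ'' by ring]
    rcases hm with hm | hm
    · right
      refine ⟨κ'', hκ'', k'', ⟨hR, ?_⟩, h3'⟩
      nlinarith
    · left
      refine ⟨κ'', hκ'', k'', ⟨?_, hL⟩, h3'⟩
      nlinarith
  · left
    apply hmain
    have hpow : (2 : ℤ) ^ κ' ≤ 2 ^ κ := pow_le_pow_right₀ (by norm_num) hκ
    constructor
    · refine lt_of_lt_of_le hR (mul_le_mul_of_nonneg_left ?_ hM'.le)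
      nlinarith
    · refine lt_of_le_of_lt (mul_le_mul_of_nonneg_left ?_ hM'.le) hL
      nlinarith

/-- **Area with density classes.** -/
theorem class_area (hM : 0 < M) (hlam : 0 < lam) (hC : 1 ≤ C)
    (hD : Real.exp (-lam * D) ≤ 1 / 4) (hwt : ∀ c, 0 ≤ wt c)
    (hsc : ∀ j, ∀ h ∈ sc j, 1 ≤ h ∧ h ≤ j)
    (hmono : ∀ j t κ k (b b' : ℤ), b ≤ b' → S j t κ k b ⊆ S j t κ k b')
    (h0 : ∀ t κ k b, κ < K → ∑ c ∈ S 0 t κ k b, wt c ≤ 2 ^ κ)
    (h0' : ∀ t κ k b, b < 0 → S 0 t κ k b = ∅)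
    (hs : ∀ j t κ' k' b, κ' < K → ∃ lane : ℕ → ℕ → ℤ → ℕ → ℕ × ℤ, ∀ c ∈ S (j + 1) t κ' k' b,
      (∃ i < M, ∃ κ'' < K, ∃ k'' : ℤ,
        Meets κ'' k'' (M * ((k' - P) * 2 ^ κ')) (M * ((k' + 1 + P) * 2 ^ κ')) ∧
        c ∈ S j (M * t + i) κ'' k'' (b - ξ j (M * t + i) - D * Nat.dist κ' κ'')) ∨
      (∃ h ∈ sc (j + 1), ∃ l < Lam h, ∃ r : ℤ, -H ≤ r ∧ r ≤ b ∧ ∃ u < M ^ h,
        (lane h l r u).1 < K ∧
        c ∈ S (j + 1 - h) (M ^ h * t + u) (lane h l r u).1 (lane h l r u).2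
          (r - Xi M ξ h (j + 1 - h) (M ^ h * t + u) - D * Nat.dist κ' (lane h l r u).1 + h)))
    (hc0 : 4 * (P + 1) * M + 3 * c0 ≤ c0 * M)
    (hCb : ∀ j, 1 + ∑ h ∈ sc (j + 1), 2 * (1 + (c0 : ℝ)) * Lam h * Real.exp (lam * h) /
      ((1 - Real.exp (-lam)) * (M : ℝ) ^ h) ≤ C) :
    ∀ (j t κ : ℕ) (A B b : ℤ), κ < K → A ≤ B → ∀ Fs : Finset γ,
      (∀ c ∈ Fs, InF S K D j t κ A B b c) →
      ∑ c ∈ Fs, wt c ≤ (((B - A : ℤ) : ℝ) + c0 * 2 ^ κ) * Gf M C lam ξ j t b := by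
  have hM' : (0 : ℝ) < M := by exact_mod_cast hM
  have hC0 : 0 < C := by linarith
  have hx1 : 0 < 1 - Real.exp (-lam) := by
    have := Real.exp_lt_one_iff.2 (show -lam < 0 by linarith)
    linarith
  have hc3 : 3 ≤ c0 := by
    have h1 : 4 * (P + 1) * M ≤ c0 * M := by omega
    have h2 : 4 * (P + 1) ≤ c0 := Nat.le_of_mul_le_mul_right h1 hM
    omega
  intro j
  induction j using Nat.strong_induction_on with
  | _ j ih =>
  intro t κ A B b hκ hAB Fs hF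
  rcases Nat.eq_zero_or_pos j with rfl | hj
  · exact class_area_zero hlam hD hwt h0 h0' hc3 t κ A B b hAB Fs hF
  obtain ⟨j, rfl⟩ : ∃ k, j = k + 1 := ⟨j - 1, by omega⟩
  set G1 := Gf M C lam ξ (j + 1) t b with hG1
  have hG1n : 0 ≤ G1 := Gf_nonneg hC0.le ξ _ _ _
  have hL : (0 : ℝ) ≤ ((B - A : ℤ) : ℝ) := by exact_mod_cast (by omega : (0 : ℤ) ≤ B - A)
  have h2κ : (0 : ℝ) < 2 ^ κ := by positivity
  have hP0 : (0 : ℤ) ≤ P := Int.natCast_nonneg P
  have hMz : (0 : ℤ) < M := by exact_mod_cast hM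
  choose lane hlane using fun (κ' : ℕ) (k' b' : ℤ) (h : κ' < K) => hs j t κ' k' b' h
  -- the single pieces of the lanes
  have hpiece : ∀ h ∈ sc (j + 1), ∀ (r : ℤ) (u κ' κu : ℕ) (ku : ℤ), κu < K →
      ∀ Gs : Finset γ, (∀ c ∈ Gs, c ∈ S (j + 1 - h) (M ^ h * t + u) κu ku
        (r - Xi M ξ h (j + 1 - h) (M ^ h * t + u) - D * Nat.dist κ' κu + h)) →
      ∑ c ∈ Gs, wt c ≤ (1 + (c0 : ℝ)) * 2 ^ κ' * Gf M C lam ξ (j + 1 - h) (M ^ h * t + u)
        (r - Xi M ξ h (j + 1 - h) (M ^ h * t + u) + h) := by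
    intro h hh r u κ' κu ku hκu Gs hGs
    obtain ⟨hh1, hh2⟩ := hsc _ h hh
    have hXu : (0 : ℤ) < 2 ^ κu := by positivity
    have h1 := ih (j + 1 - h) (by omega) (M ^ h * t + u) κu (ku * 2 ^ κu) ((ku + 1) * 2 ^ κu)
      (r - Xi M ξ h (j + 1 - h) (M ^ h * t + u) - D * Nat.dist κ' κu + h) hκu (by nlinarith) Gs
      (fun c hc => ⟨κu, hκu, ku, ⟨by nlinarith, by nlinarith⟩, by
        rw [Nat.dist_self, Nat.cast_zero, mul_zero, sub_zero]; exact hGs c hc⟩)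
    refine h1.trans ?_
    have h2 : (((ku + 1) * 2 ^ κu - ku * 2 ^ κu : ℤ) : ℝ) = 2 ^ κu := by push_cast; ring
    rw [h2]
    have h3 : r - Xi M ξ h (j + 1 - h) (M ^ h * t + u) - D * Nat.dist κ' κu + h =
        r - Xi M ξ h (j + 1 - h) (M ^ h * t + u) + h - D * Nat.dist κ' κu := by ring
    rw [h3]
    have h4 := Gf_pen hC0.le hD ξ (j + 1 - h) (M ^ h * t + u)
      (r - Xi M ξ h (j + 1 - h) (M ^ h * t + u) + h) (Nat.dist κ' κu) (M := M)
    have h5 := two_pow_pen κu κ'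
    set G2 := Gf M C lam ξ (j + 1 - h) (M ^ h * t + u)
      (r - Xi M ξ h (j + 1 - h) (M ^ h * t + u) + h) with hG2
    have hG2n : 0 ≤ G2 := Gf_nonneg hC0.le ξ _ _ _
    have hc : (0 : ℝ) ≤ c0 := Nat.cast_nonneg c0
    calc ((2 : ℝ) ^ κu + c0 * 2 ^ κu) * Gf M C lam ξ (j + 1 - h) (M ^ h * t + u)
          (r - Xi M ξ h (j + 1 - h) (M ^ h * t + u) + h - D * Nat.dist κ' κu) ≤
        ((2 : ℝ) ^ κu + c0 * 2 ^ κu) * ((1 / 4 : ℝ) ^ Nat.dist κ' κu * G2) :=
          mul_le_mul_of_nonneg_left h4 (by positivity)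
      _ = (1 + (c0 : ℝ)) * (2 ^ κu * (1 / 4 : ℝ) ^ Nat.dist κ' κu) * G2 := by ring
      _ ≤ (1 + (c0 : ℝ)) * 2 ^ κ' * G2 := by
          refine mul_le_mul_of_nonneg_right ?_ hG2n
          exact mul_le_mul_of_nonneg_left h5 (by positivity)
  -- the two parts
  have hsplit := sum_or hwt
    (fun c => ∃ i ∈ range M,
      (InF S K D j (M * t + i) κ (M * (A - (P + 1) * 2 ^ κ)) (M * (B + (P + 1) * 2 ^ κ))
        (b - ξ j (M * t + i)) c ∨
      ∃ e ∈ (range K).filter (κ < ·),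
        (InF S K D j (M * t + i) e (M * (A - (P + 1) * 2 ^ e)) (M * (A - (P + 1) * 2 ^ κ))
          (b - ξ j (M * t + i) - D * Nat.dist κ e) c ∨
        InF S K D j (M * t + i) e (M * (B + (P + 1) * 2 ^ κ)) (M * (B + (P + 1) * 2 ^ e))
          (b - ξ j (M * t + i) - D * Nat.dist κ e) c)))
    (fun c => ∃ κ' ∈ range K, ∃ k' ∈ bx κ' A B, ∃ h ∈ sc (j + 1), ∃ l ∈ range (Lam h),
      ∃ r ∈ Icc (-H : ℤ) (b - D * Nat.dist κ κ'), ∃ u ∈ range (M ^ h), ∃ (hK : κ' < K),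
        (lane κ' k' (b - D * Nat.dist κ κ') hK h l r u).1 < K ∧
        c ∈ S (j + 1 - h) (M ^ h * t + u) (lane κ' k' (b - D * Nat.dist κ κ') hK h l r u).1
          (lane κ' k' (b - D * Nat.dist κ κ') hK h l r u).2
          (r - Xi M ξ h (j + 1 - h) (M ^ h * t + u) -
            D * Nat.dist κ' (lane κ' k' (b - D * Nat.dist κ κ') hK h l r u).1 + h))
    (x := (((B - A : ℤ) : ℝ) + c0 * 2 ^ κ) * (G1 / C))
    (y := (((B - A : ℤ) : ℝ) + c0 * 2 ^ κ) * ((C - 1) * (G1 / C)))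
    Fs ?_ ?_ ?_
  · refine hsplit.trans (le_of_eq ?_)
    field_simp
    ring
  · -- every element is in one of the two parts
    intro c hc
    obtain ⟨κ', hκ', k', hmeet, hcS⟩ := hF c hc
    rcases hlane κ' k' (b - D * Nat.dist κ κ') hκ' c hcS with
      ⟨i, hi, κ'', hκ'', k'', hm'', hc''⟩ | ⟨h, hh, l, hl, r, hr1, hr2, u, hu, hlK, hcl⟩
    · left
      refine ⟨i, Finset.mem_range.2 hi, ?_⟩
      exact base_cases hM hmono (ξ j (M * t + i) : ℤ) hκ' hκ'' hmeet hm'' hc''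
    · right
      exact ⟨κ', Finset.mem_range.2 hκ', k', mem_bx.2 hmeet, h, hh, l, Finset.mem_range.2 hl, r,
        Finset.mem_Icc.2 ⟨hr1, hr2⟩, u, Finset.mem_range.2 hu, hκ', hlK, hcl⟩
  · -- baseline
    intro Gs hGs
    have h1 := sum_cover hwt (range M) _ (fun i => (((B - A : ℤ) : ℝ) + c0 * 2 ^ κ) *
      ((M : ℝ) * Gf M C lam ξ j (M * t + i) (b - ξ j (M * t + i)))) Gs hGs (by
      intro i _ Hs hHs
      set G3 := Gf M C lam ξ j (M * t + i) (b - ξ j (M * t + i)) with hG3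
      have hG3n : 0 ≤ G3 := Gf_nonneg hC0.le ξ _ _ _
      have hXz : (0 : ℤ) < 2 ^ κ := by positivity
      have h2 := sum_or hwt _ _ (x := ((M : ℝ) * ((B - A : ℤ) : ℝ) + 2 * (M * (P + 1) * 2 ^ κ) +
          c0 * 2 ^ κ) * G3)
        (y := 2 * (M * (P + 1) + c0) * 2 ^ κ * G3) Hs hHs ?_ ?_
      · refine h2.trans ?_
        have h3 : ((M : ℝ) * ((B - A : ℤ) : ℝ) + 2 * (M * (P + 1) * 2 ^ κ) + c0 * 2 ^ κ) * G3 +
            2 * (M * (P + 1) + c0) * 2 ^ κ * G3 =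
            ((M : ℝ) * ((B - A : ℤ) : ℝ) + (4 * (P + 1) * M + 3 * c0) * 2 ^ κ) * G3 := by ring
        rw [h3]
        have h4 : (4 * ((P : ℝ) + 1) * M + 3 * c0) ≤ c0 * M := by exact_mod_cast hc0
        have h5 : ((M : ℝ) * ((B - A : ℤ) : ℝ) + (4 * (P + 1) * M + 3 * c0) * 2 ^ κ) ≤
            ((B - A : ℤ) : ℝ) * M + c0 * M * 2 ^ κ := by nlinarith
        calc _ ≤ (((B - A : ℤ) : ℝ) * M + c0 * M * 2 ^ κ) * G3 :=
              mul_le_mul_of_nonneg_right h5 hG3n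
          _ = _ := by ring
      · -- main part
        intro Ks hKs
        have h3 := ih j (by omega) (M * t + i) κ (M * (A - (P + 1) * 2 ^ κ))
          (M * (B + (P + 1) * 2 ^ κ)) (b - ξ j (M * t + i)) hκ
          (mul_le_mul_of_nonneg_left (by
            have : (0 : ℤ) ≤ (P + 1) * 2 ^ κ := by positivity
            linarith) hMz.le) Ks hKs
        refine h3.trans (le_of_eq ?_)
        rw [← hG3]
        push_cast
        ring
      · -- side parts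
        intro Ks hKs
        have h3 := sum_cover hwt ((range K).filter (κ < ·)) _ (fun e =>
          2 * (M * (P + 1) + c0) * G3 * ((2 : ℝ) ^ e * (1 / 4 : ℝ) ^ Nat.dist κ e)) Ks hKs (by
          intro e he Ls hLs
          obtain ⟨he1, he2⟩ := Finset.mem_filter.1 he
          have heK := Finset.mem_range.1 he1
          have hpow : (2 : ℤ) ^ κ ≤ 2 ^ e := pow_le_pow_right₀ (by norm_num) he2.le
          have hpow' : (2 : ℝ) ^ κ ≤ 2 ^ e := pow_le_pow_right₀ (by norm_num) he2.le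
          have hpen := Gf_pen hC0.le hD ξ j (M * t + i) (b - ξ j (M * t + i)) (Nat.dist κ e)
            (M := M)
          rw [← hG3] at hpen
          have hw : ∀ A' B' : ℤ, B' - A' = M * ((P + 1) * (2 ^ e - 2 ^ κ)) → A' ≤ B' →
              ∀ Ms : Finset γ, (∀ c ∈ Ms, InF S K D j (M * t + i) e A' B'
                (b - ξ j (M * t + i) - D * Nat.dist κ e) c) → ∑ c ∈ Ms, wt c ≤
                (M * (P + 1) + c0) * G3 * ((2 : ℝ) ^ e * (1 / 4 : ℝ) ^ Nat.dist κ e) := by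
            intro A' B' hAB' hle Ms hMs
            have h4 := ih j (by omega) (M * t + i) e A' B'
              (b - ξ j (M * t + i) - D * Nat.dist κ e) heK hle Ms hMs
            refine h4.trans ?_
            rw [hAB']
            have h5 : ((M * ((P + 1) * (2 ^ e - 2 ^ κ)) : ℤ) : ℝ) + c0 * 2 ^ e ≤
                (M * (P + 1) + c0) * 2 ^ e := by
              push_cast
              have : (0 : ℝ) ≤ M * (P + 1) * 2 ^ κ := by positivity
              nlinarith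
            have h6 : 0 ≤ ((M * ((P + 1) * (2 ^ e - 2 ^ κ)) : ℤ) : ℝ) + c0 * 2 ^ e := by
              push_cast
              have h7 : (0 : ℝ) ≤ 2 ^ e - 2 ^ κ := by linarith
              positivity
            calc _ ≤ (((M * ((P + 1) * (2 ^ e - 2 ^ κ)) : ℤ) : ℝ) + c0 * 2 ^ e) *
                  ((1 / 4 : ℝ) ^ Nat.dist κ e * G3) := mul_le_mul_of_nonneg_left hpen h6
              _ ≤ (M * (P + 1) + c0) * 2 ^ e * ((1 / 4 : ℝ) ^ Nat.dist κ e * G3) :=
                  mul_le_mul_of_nonneg_right h5 (by positivity)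
              _ = _ := by ring
          have hPe : ((P : ℤ) + 1) * 2 ^ κ ≤ (P + 1) * 2 ^ e :=
            mul_le_mul_of_nonneg_left hpow (by linarith)
          have h4 := sum_or hwt _ _ Ls hLs
            (hw _ _ (by ring) (mul_le_mul_of_nonneg_left (by linarith) hMz.le))
            (hw _ _ (by ring) (mul_le_mul_of_nonneg_left (by linarith) hMz.le))
          refine h4.trans (le_of_eq ?_)
          ring)
        refine h3.trans ?_
        rw [← Finset.mul_sum]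
        have h4 := geo3 κ K
        have h5 : 0 ≤ 2 * (M * ((P : ℝ) + 1) + c0) * G3 := by positivity
        have h6 := mul_le_mul_of_nonneg_left h4 h5
        refine h6.trans (le_of_eq ?_)
        ring)
    refine h1.trans (le_of_eq ?_)
    rw [← Finset.mul_sum, ← Finset.mul_sum, hG1, ← Gf_base hM ξ j t b]
    field_simp
  · -- lanes
    intro Gs hGs
    set R : ℝ := ∑ h ∈ sc (j + 1), (1 + (c0 : ℝ)) * Lam h * Real.exp (lam * h) /
      ((1 - Real.exp (-lam)) * (M : ℝ) ^ h) with hR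
    have hR0 : 0 ≤ R := by
      rw [hR]
      exact Finset.sum_nonneg fun h _ => by positivity
    have hR2 : 2 * R ≤ C - 1 := by
      have := hCb j
      have h2 : ∑ h ∈ sc (j + 1), 2 * (1 + (c0 : ℝ)) * Lam h * Real.exp (lam * h) /
          ((1 - Real.exp (-lam)) * (M : ℝ) ^ h) = 2 * R := by
        rw [hR, Finset.mul_sum]
        exact Finset.sum_congr rfl fun h _ => by ring
      rw [h2] at this
      linarith
    have h1 := sum_cover hwt (range K) _ (fun κ' => ((((B - A : ℤ) : ℝ) + 2 * 2 ^ κ') *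
      (1 / 4 : ℝ) ^ Nat.dist κ κ') * (R * (G1 / C))) Gs hGs (by
      intro κ' hκ' Hs hHs
      have h2 := sum_cover hwt (bx κ' A B) _ (fun _ => (2 : ℝ) ^ κ' * (1 / 4 : ℝ) ^ Nat.dist κ κ' *
        (R * (G1 / C))) Hs hHs (by
        intro k' hk' Is hIs
        have h3 := sum_cover hwt (sc (j + 1)) _ (fun h => (2 : ℝ) ^ κ' *
          (1 / 4 : ℝ) ^ Nat.dist κ κ' * (((1 + (c0 : ℝ)) * Lam h * Real.exp (lam * h) /
            ((1 - Real.exp (-lam)) * (M : ℝ) ^ h)) * (G1 / C))) Is hIs (by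
          intro h hh Js hJs
          obtain ⟨hh1, hh2⟩ := hsc _ h hh
          have h4 := sum_cover hwt (range (Lam h)) _ (fun _ => (2 : ℝ) ^ κ' *
            (1 / 4 : ℝ) ^ Nat.dist κ κ' * (((1 + (c0 : ℝ)) * Real.exp (lam * h) /
              ((1 - Real.exp (-lam)) * (M : ℝ) ^ h)) * (G1 / C))) Js hJs (by
            intro l _ Ks hKs
            have h5 := sum_cover hwt (Icc (-H : ℤ) (b - D * Nat.dist κ κ')) _ (fun r =>
              (1 + (c0 : ℝ)) * 2 ^ κ' * (Real.exp (lam * h) / ((M : ℝ) ^ h * C)) *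
                Gf M C lam ξ (j + 1) t r) Ks hKs (by
              intro r _ Ls hLs
              have h6 := sum_cover hwt (range (M ^ h)) _ (fun u => (1 + (c0 : ℝ)) * 2 ^ κ' *
                Gf M C lam ξ (j + 1 - h) (M ^ h * t + u)
                  (r - Xi M ξ h (j + 1 - h) (M ^ h * t + u) + h)) Ls hLs (by
                intro u _ Ms hMs
                by_cases hne : Ms.Nonempty
                · obtain ⟨c, hc⟩ := hne
                  obtain ⟨hK, hlK, -⟩ := hMs c hc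
                  exact hpiece h hh r u κ' (lane κ' k' (b - D * Nat.dist κ κ') hK h l r u).1
                    (lane κ' k' (b - D * Nat.dist κ κ') hK h l r u).2 hlK Ms fun c hc => by
                      obtain ⟨_, _, h7⟩ := hMs c hc
                      exact h7
                · rw [Finset.not_nonempty_iff_eq_empty.1 hne, Finset.sum_empty]
                  have := Gf_nonneg (M := M) (lam := lam) hC0.le ξ (j + 1 - h) (M ^ h * t + u)
                    (r - Xi M ξ h (j + 1 - h) (M ^ h * t + u) + h)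
                  positivity)
              refine h6.trans ?_
              rw [← Finset.mul_sum]
              have h7 := Gf_lane hM hC ξ hh1 hh2 t r (lam := lam)
              have h8 : 0 < (M : ℝ) ^ h * C := by positivity
              rw [mul_assoc ((1 + (c0 : ℝ)) * 2 ^ κ'), div_mul_eq_mul_div]
              refine mul_le_mul_of_nonneg_left ?_ (by positivity)
              rw [le_div_iff₀ h8]
              linarith)
            refine h5.trans ?_
            rw [← Finset.mul_sum]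
            have h6 : ∑ r ∈ Icc (-H : ℤ) (b - D * Nat.dist κ κ'), Gf M C lam ξ (j + 1) t r ≤
                (1 / 4 : ℝ) ^ Nat.dist κ κ' * G1 / (1 - Real.exp (-lam)) := by
              have h7 := rounds_le hlam (-H : ℤ) (b - D * Nat.dist κ κ')
              have h8 := Gf_pen hC0.le hD ξ (j + 1) t b (Nat.dist κ κ') (M := M)
              rw [← hG1] at h8
              have hWn := Wt_nonneg M ξ lam (j + 1) t
              have h9 : ∑ r ∈ Icc (-H : ℤ) (b - D * Nat.dist κ κ'), Gf M C lam ξ (j + 1) t r =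
                  (2 * (M : ℝ) ^ (j + 1) * C ^ (j + 1) * Wt M ξ lam (j + 1) t) *
                  ∑ r ∈ Icc (-H : ℤ) (b - D * Nat.dist κ κ'), Real.exp (lam * (r : ℝ)) := by
                rw [Finset.mul_sum]
                refine Finset.sum_congr rfl fun r _ => ?_
                unfold Gf
                ring
              have h10 : (2 * (M : ℝ) ^ (j + 1) * C ^ (j + 1) * Wt M ξ lam (j + 1) t) *
                  Real.exp (lam * ((b - D * Nat.dist κ κ' : ℤ) : ℝ)) =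
                  Gf M C lam ξ (j + 1) t (b - D * Nat.dist κ κ') := by
                unfold Gf
                ring
              rw [h9]
              refine (mul_le_mul_of_nonneg_left h7 (by positivity)).trans ?_
              rw [← mul_div_assoc, h10]
              exact div_le_div_of_nonneg_right h8 hx1.le
            refine (mul_le_mul_of_nonneg_left h6 (by positivity)).trans (le_of_eq ?_)
            field_simp)
          refine h4.trans (le_of_eq ?_)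
          rw [Finset.sum_const, Finset.card_range, nsmul_eq_mul]
          ring)
        refine h3.trans (le_of_eq ?_)
        rw [← Finset.mul_sum, ← Finset.sum_mul, ← hR])
      refine h2.trans ?_
      rw [Finset.sum_const, nsmul_eq_mul]
      have h3 := card_bx (κ := κ') hAB
      have h4 : 0 ≤ (1 / 4 : ℝ) ^ Nat.dist κ κ' * (R * (G1 / C)) := by positivity
      have h5 := mul_le_mul_of_nonneg_right h3 h4
      calc ((bx κ' A B).card : ℝ) * (2 ^ κ' * (1 / 4 : ℝ) ^ Nat.dist κ κ' * (R * (G1 / C))) =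
          ((bx κ' A B).card : ℝ) * 2 ^ κ' * ((1 / 4 : ℝ) ^ Nat.dist κ κ' * (R * (G1 / C))) := by ring
        _ ≤ _ := h5
        _ = _ := by ring)
    refine h1.trans ?_
    rw [← Finset.sum_mul]
    have h4 : ∑ κ' ∈ range K, (((B - A : ℤ) : ℝ) + 2 * 2 ^ κ') * (1 / 4 : ℝ) ^ Nat.dist κ κ' =
        ((B - A : ℤ) : ℝ) * ∑ κ' ∈ range K, (1 / 4 : ℝ) ^ Nat.dist κ κ' +
          2 * ∑ κ' ∈ range K, (2 : ℝ) ^ κ' * (1 / 4 : ℝ) ^ Nat.dist κ κ' := by
      rw [Finset.mul_sum, Finset.mul_sum, ← Finset.sum_add_distrib]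
      exact Finset.sum_congr rfl fun i _ => by ring
    rw [h4]
    have h5 := geo1 κ K
    have h6 := geo2 κ K
    have h7 : (3 : ℝ) ≤ c0 := by exact_mod_cast hc3
    have h9 : ((B - A : ℤ) : ℝ) * ∑ κ' ∈ range K, (1 / 4 : ℝ) ^ Nat.dist κ κ' +
          2 * ∑ κ' ∈ range K, (2 : ℝ) ^ κ' * (1 / 4 : ℝ) ^ Nat.dist κ κ' ≤
          2 * (((B - A : ℤ) : ℝ) + c0 * 2 ^ κ) := by nlinarith
    have h10 : 0 ≤ G1 / C := div_nonneg hG1n hC0.le
    have h11 : 0 ≤ ((B - A : ℤ) : ℝ) + c0 * 2 ^ κ := by positivity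
    calc _ ≤ 2 * (((B - A : ℤ) : ℝ) + c0 * 2 ^ κ) * (R * (G1 / C)) :=
          mul_le_mul_of_nonneg_right h9 (by positivity)
      _ = (((B - A : ℤ) : ℝ) + c0 * 2 ^ κ) * (2 * R * (G1 / C)) := by ring
      _ ≤ (((B - A : ℤ) : ℝ) + c0 * 2 ^ κ) * ((C - 1) * (G1 / C)) := by
          refine mul_le_mul_of_nonneg_left ?_ h11
          exact mul_le_mul_of_nonneg_right hR2 h10

end Main

end Vale.Agent.P315.H869
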